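import Vale.Agent.P290.R2.H596.Spec

/-! The theorem for the fibres (second version). -/

open Set Filter Metric
open scoped Topology NNReal

namespace Vale.Agent.P290.R2.H236

open Vale.Agent.P290 Vale.Agent.P290.K Vale.Agent.P290.H580 Vale.Agent.P290.H805
open Vale.Agent.P290.R2.H596

theorem compactSpace_fib {T E : Type} [TopologicalSpace T] [TopologicalSpace E] (F : Family T E)
    (hp : IsProperMap F.p) (t₀ : T) : CompactSpace (Fib F t₀) := by
  refine ⟨isInducing_val.isCompact_iff.2 ?_⟩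
  have h1 : Fib.val '' (univ : Set (Fib F t₀)) = F.p ⁻¹' {t₀} := by
    ext y
    constructor
    · rintro ⟨x, -, rfl⟩; exact x.prop
    · intro hy; exact ⟨⟨y, hy⟩, mem_univ _, rfl⟩
  rw [h1]
  exact hp.isCompact_preimage isCompact_singleton

theorem fibres' (hN : StNearby) : StFibres := by
  intro T E _ _ F hp t₀ hT2 hconn hOka m k z hz ρ
  have := compactSpace_fib F hp t₀
  have hP : IsProperMap (fun (x : Fin (k + 1) → E) j => F.p (x j)) :=
    IsProperMap.pi_map fun _ => hp
  have h1 : ∀ x : Fin (k + 1) → E, (fun j => F.p (x j)) = (fun _ => t₀) → ∀ᶠ x' in 𝓝 x,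
      ∀ t, (∀ j, F.p (x' j) = t) → ∃ g : (Fin m → ℂ) → E,
      (∀ y ∈ closedBall (0 : Fin m → ℂ) ρ, FH F t g y) ∧ ∀ j, g (z j) = x' j := by
    intro x hx
    exact hN T E F t₀ hOka m k z hz ρ x fun j => congrFun hx j
  have h2 := hP.isClosedMap.eventually_nhds_fiber (fun _ => t₀) h1
  have h3 : Tendsto (fun t : T => (fun _ : Fin (k + 1) => t)) (𝓝 t₀) (𝓝 (fun _ => t₀)) :=
    (continuous_pi fun _ => continuous_id).tendsto t₀
  filter_upwards [h3.eventually h2] with t ht x hx
  exact ht x (funext hx) t hx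

end Vale.Agent.P290.R2.H236
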