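import Vale.Agent.P290.R2.H596.Spec

/-! Interpolation near a tuple of points of the central fibre (second version). -/

open Set Filter Metric
open scoped Topology

namespace Vale.Agent.P290.R2.H236

open Vale.Agent.P290 Vale.Agent.P290.K Vale.Agent.P290.H580 Vale.Agent.P290.H805
open Vale.Agent.P290.R2.H596

theorem exists_nodes (k : ℕ) : ∃ n : Fin k → ℂ, (∀ j, ‖n j‖ = 1) ∧ Function.Injective n := by
  have hre : ∀ a : ℕ, (1 - Complex.I * (a : ℂ)) ≠ 0 := by
    intro a h
    have := congrArg Complex.re h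
    simp at this
  refine ⟨fun j => (1 + Complex.I * ((j : ℕ) : ℂ)) / (1 - Complex.I * ((j : ℕ) : ℂ)), ?_, ?_⟩
  · intro j
    have h1 : (1 + Complex.I * ((j : ℕ) : ℂ)) =
        starRingEnd ℂ (1 - Complex.I * ((j : ℕ) : ℂ)) := by
      simp
    rw [norm_div, h1, Complex.norm_conj, div_self]
    exact norm_ne_zero_iff.2 (hre j)
  · intro a b hab
    have hab' : (1 + Complex.I * ((a : ℕ) : ℂ)) / (1 - Complex.I * ((a : ℕ) : ℂ)) =
      (1 + Complex.I * ((b : ℕ) : ℂ)) / (1 - Complex.I * ((b : ℕ) : ℂ)) := hab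
    rw [div_eq_div_iff (hre a) (hre b)] at hab'
    have h2 : (2 * Complex.I) * (((a : ℕ) : ℂ) - ((b : ℕ) : ℂ)) = 0 := by linear_combination hab'
    rcases mul_eq_zero.1 h2 with h3 | h3
    · simp at h3
    · have h4 : ((a : ℕ) : ℂ) = ((b : ℕ) : ℂ) := sub_eq_zero.1 h3
      exact Fin.ext (by exact_mod_cast h4)

variable {T E : Type} [TopologicalSpace T] [TopologicalSpace E]

theorem continuousAt_p (F : Family T E) (x : E) : ContinuousAt F.p x := by
  have h1 : ContinuousAt (fun y => (F.triv x y).1) x :=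
    continuous_fst.continuousAt.comp ((F.triv x).continuousAt (F.mem x))
  refine h1.congr ?_
  filter_upwards [(F.triv x).open_source.mem_nhds (F.mem x)] with y hy using F.fst x y hy

/-- the points whose coordinate at `x` is close to `a + w` -/
def Near (F : Family T E) (x : E) (a : C2) (δ : ℝ) (w : C2) (e : E) : Prop :=
  e ∈ (F.triv x).source ∧ ‖(F.triv x e).2 - (a + w)‖ < δ

theorem near_nhds (F : Family T E) (x : E) (a : C2) (δ : ℝ) {w : C2} {e : E}
    (h : Near F x a δ w e) : {q : C2 × E | Near F x a δ q.1 q.2} ∈ 𝓝 (w, e) := by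
  have h1 : ContinuousAt (fun q : C2 × E => ‖(F.triv x q.2).2 - (a + q.1)‖) (w, e) := by
    have h2 : ContinuousAt (fun q : C2 × E => (F.triv x q.2).2) (w, e) := by
      have h3 : ContinuousAt (F.triv x) ((fun q : C2 × E => q.2) (w, e)) :=
        (F.triv x).continuousAt h.1
      exact continuous_snd.continuousAt.comp
        (ContinuousAt.comp (g := F.triv x) (f := fun q : C2 × E => q.2) h3
          continuous_snd.continuousAt)
    exact (h2.sub (continuousAt_const.add continuous_fst.continuousAt)).norm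
  have h4 : ∀ᶠ q : C2 × E in 𝓝 (w, e), ‖(F.triv x q.2).2 - (a + q.1)‖ < δ :=
    h1.eventually (Iio_mem_nhds h.2)
  have h5 : ∀ᶠ q : C2 × E in 𝓝 (w, e), q.2 ∈ (F.triv x).source :=
    (continuous_snd.continuousAt (x := (w, e))).eventually ((F.triv x).open_source.mem_nhds h.1)
  filter_upwards [h4, h5] with q hq1 hq2 using ⟨hq2, hq1⟩

/-- a condition at finitely many nodes is an open condition on the graph -/
theorem nodes_nhds {V : Type} [TopologicalSpace V] [T1Space V] {k : ℕ} (F : Family T E)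
    (x : Fin k → E) (a : Fin k → C2) (δ : ℝ) (nd : Fin k → V) {v : V} {w : Fin k → C2} {e : E}
    (h : ∀ j, v = nd j → Near F (x j) (a j) δ (w j) e) :
    {q : (V × (Fin k → C2)) × E | ∀ j, q.1.1 = nd j → Near F (x j) (a j) δ (q.1.2 j) q.2} ∈
      𝓝 ((v, w), e) := by
  have h1 : ∀ j, ∀ᶠ q : (V × (Fin k → C2)) × E in 𝓝 ((v, w), e),
      q.1.1 = nd j → Near F (x j) (a j) δ (q.1.2 j) q.2 := by
    intro j
    by_cases hj : v = nd j
    · have h2 : Tendsto (fun q : (V × (Fin k → C2)) × E => (q.1.2 j, q.2)) (𝓝 ((v, w), e))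
          (𝓝 (w j, e)) := Continuous.tendsto (by fun_prop) ((v, w), e)
      filter_upwards [h2.eventually (near_nhds F (x j) (a j) δ (h j hj))] with q hq _ using hq
    · have h3 : Tendsto (fun q : (V × (Fin k → C2)) × E => q.1.1) (𝓝 ((v, w), e)) (𝓝 v) :=
        Continuous.tendsto (by fun_prop) ((v, w), e)
      filter_upwards [h3.eventually (isOpen_ne.mem_nhds hj)] with q hq hq2
      exact absurd hq2 hq
  exact eventually_all.2 h1

theorem nearby' (hL : StLocal) (hO : StOka) (hs : StSurj) (hi : StInterp) : StNearby := by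
  intro T E _ _ F t₀ _ _ _ hOka m k z hz ρ x hx
  obtain ⟨n, hn1, hn2⟩ := exists_nodes (k + 1)
  set a : Fin (k + 1) → C2 := fun j => (F.triv (x j) (x j)).2 with ha
  have htarget : ∀ j, (t₀, a j) ∈ (F.triv (x j)).target := by
    intro j
    have h1 : F.triv (x j) (x j) = (t₀, a j) := by
      rw [F.mk_eq (x j) (F.mem (x j)), hx j]
    rw [← h1]
    exact (F.triv (x j)).map_source (F.mem (x j))
  -- radius for the coordinates
  have hr0 : ∃ r > (0 : ℝ), ∀ j, ∀ v ∈ ball (a j) r, (t₀, v) ∈ (F.triv (x j)).target := by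
    have h1 : ∀ j, ∀ᶠ r in 𝓝[>] (0 : ℝ), ∀ v ∈ ball (a j) r, (t₀, v) ∈ (F.triv (x j)).target := by
      intro j
      have h2 : {v : C2 | (t₀, v) ∈ (F.triv (x j)).target} ∈ 𝓝 (a j) :=
        ((F.triv (x j)).open_target.preimage (Continuous.prodMk_right t₀)).mem_nhds (htarget j)
      obtain ⟨r, hr, h3⟩ := Metric.mem_nhds_iff.1 h2
      have h4 : ∀ᶠ s in 𝓝 (0 : ℝ), s < r := Iio_mem_nhds hr
      filter_upwards [nhdsWithin_le_nhds h4] with s hs v hv
      exact h3 (ball_subset_ball hs.le hv)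
    obtain ⟨r, h5, h6⟩ := ((eventually_all.2 h1).and self_mem_nhdsWithin).exists
    exact ⟨r, h6, h5⟩
  obtain ⟨r, hr, hball⟩ := hr0
  obtain ⟨ρ₀, hρ₀, hG⟩ := hL T E F t₀ (k + 1) n hn1 hn2 x hx
  obtain ⟨σ, hσ, hσ1, hσ2⟩ : ∃ σ > (0 : ℝ), σ ≤ ρ₀ ∧ σ < r :=
    ⟨min ρ₀ (r / 2), lt_min hρ₀ (by positivity), min_le_left _ _,
      (min_le_right _ _).trans_lt (by linarith)⟩
  obtain ⟨u, hu1, hu2⟩ := hG σ hσ hσ1 (fun j => {q | Near F (x j) (a j) (σ / 8) (q.1 j) q.2}) (by
    intro j w hw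
    have hwj : ‖w j‖ ≤ σ := (norm_le_pi_norm w j).trans (mem_closedBall_zero_iff.1 hw)
    have hmem : (t₀, a j + w j) ∈ (F.triv (x j)).target := by
      refine hball j _ ?_
      rw [mem_ball_iff_norm, add_sub_cancel_left]
      linarith
    have h1 : Near F (x j) (a j) (σ / 8) (w j) ((F.triv (x j)).symm (t₀, a j + w j)) := by
      refine ⟨(F.triv (x j)).map_target hmem, ?_⟩
      rw [(F.triv (x j)).right_inv hmem]
      simpa using hσ
    have h2 := near_nhds F (x j) (a j) (σ / 8) h1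
    have h3 : Tendsto (fun q : (Fin (k + 1) → C2) × E => (q.1 j, q.2))
        (𝓝 (w, (F.triv (x j)).symm (t₀, a j + w j)))
        (𝓝 (w j, (F.triv (x j)).symm (t₀, a j + w j))) :=
      Continuous.tendsto (by fun_prop) (w, (F.triv (x j)).symm (t₀, a j + w j))
    exact h3.eventually h2)
  have hKg : Good (closedBall (0 : ℂ) 1 ×ˢ closedBall (0 : Fin (k + 1) → C2) σ) :=
    ⟨(isCompact_closedBall _ _).prod (isCompact_closedBall _ _),
      (convex_closedBall _ _).prod (convex_closedBall _ _)⟩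
  obtain ⟨G, hG1, hG2⟩ := hO T E F t₀ hOka (ℂ × (Fin (k + 1) → C2)) _ hKg
    ⟨(0, 0), mem_closedBall_self zero_le_one, mem_closedBall_self hσ.le⟩ u hu1
    {q | ∀ j, q.1.1 = n j → Near F (x j) (a j) (σ / 8) (q.1.2 j) q.2} (by
      rintro ⟨v, w⟩ ⟨hv, hw⟩
      refine nodes_nhds F x a (σ / 8) n fun j hj => ?_
      have h1 : v = n j := hj
      rw [h1]
      exact hu2 j w hw)
  obtain ⟨P, hP1, hP2⟩ := hi m (k + 1) z hz n
  -- the large ball
  obtain ⟨R, hR1, hR2⟩ : ∃ R : ℝ, ρ ≤ R ∧ ∀ j, ‖z j‖ ≤ R := by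
    obtain ⟨j, hj⟩ := Finite.exists_max fun j => ‖z j‖
    exact ⟨max ρ ‖z j‖, le_max_left _ _, fun i => (hj i).trans (le_max_right _ _)⟩
  have hKg' : Good (closedBall (0 : Fin m → ℂ) R ×ˢ closedBall (0 : Fin (k + 1) → C2) σ) :=
    ⟨(isCompact_closedBall _ _).prod (isCompact_closedBall _ _),
      (convex_closedBall _ _).prod (convex_closedBall _ _)⟩
  have hg0 : ∀ q : (Fin m → ℂ) × (Fin (k + 1) → C2), FH F t₀ (fun q => G (P q.1, q.2)) q := by
    intro q
    refine FH.comp (q := fun q : (Fin m → ℂ) × (Fin (k + 1) → C2) => (P q.1, q.2)) (hG1 _) ?_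
    exact ((hP1.comp differentiable_fst).prodMk differentiable_snd) q
  have hdef := deformation hKg' (u₀ := fun q => G (P q.1, q.2)) (Eventually.of_forall hg0)
    {q | ∀ j, q.1.1 = z j → Near F (x j) (a j) (σ / 8) (q.1.2 j) q.2} (by
      rintro ⟨v, w⟩ ⟨hv, hw⟩
      refine nodes_nhds F x a (σ / 8) z fun j hj => ?_
      have h1 : v = z j := hj
      have h2 : P v = n j := by rw [h1, hP2]
      have h3 := hG2 (n j, w) ⟨mem_closedBall_zero_iff.2 (hn1 j).le, hw⟩ j rfl
      change Near F (x j) (a j) (σ / 8) (w j) (G (P v, w))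
      rw [h2]
      exact h3)
  -- points near `x`
  have e1 : ∀ᶠ x' in 𝓝 x, ∃ u : (Fin m → ℂ) × (Fin (k + 1) → C2) → E,
      (∀ᶠ q in 𝓝ˢ (closedBall (0 : Fin m → ℂ) R ×ˢ closedBall (0 : Fin (k + 1) → C2) σ),
        FH F (F.p (x' 0)) u q) ∧
      ∀ q ∈ closedBall (0 : Fin m → ℂ) R ×ˢ closedBall (0 : Fin (k + 1) → C2) σ,
        (q, u q) ∈ {q : ((Fin m → ℂ) × (Fin (k + 1) → C2)) × E |
          ∀ j, q.1.1 = z j → Near F (x j) (a j) (σ / 8) (q.1.2 j) q.2} := by
    have h1 : Tendsto (fun x' : Fin (k + 1) → E => F.p (x' 0)) (𝓝 x) (𝓝 t₀) := by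
      have h2 : ContinuousAt F.p (x 0) := continuousAt_p F (x 0)
      have h3 : Tendsto (fun x' : Fin (k + 1) → E => x' 0) (𝓝 x) (𝓝 (x 0)) :=
        (continuous_apply 0).tendsto x
      have h4 := h2.tendsto.comp h3
      rwa [hx 0] at h4
    exact h1.eventually hdef
  have e2 : ∀ᶠ x' in 𝓝 x, ∀ j, x' j ∈ (F.triv (x j)).source ∧
      ‖(F.triv (x j) (x' j)).2 - a j‖ < σ / 4 := by
    refine eventually_all.2 fun j => ?_
    have h3 : Tendsto (fun x' : Fin (k + 1) → E => x' j) (𝓝 x) (𝓝 (x j)) :=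
      (continuous_apply j).tendsto x
    have h4 : ∀ᶠ e in 𝓝 (x j), e ∈ (F.triv (x j)).source ∧
        ‖(F.triv (x j) e).2 - a j‖ < σ / 4 := by
      have h5 : ContinuousAt (fun e => ‖(F.triv (x j) e).2 - a j‖) (x j) :=
        ((continuous_snd.continuousAt.comp ((F.triv (x j)).continuousAt (F.mem (x j)))).sub
          continuousAt_const).norm
      have h6 : ∀ᶠ e in 𝓝 (x j), ‖(F.triv (x j) e).2 - a j‖ < σ / 4 := by
        refine h5.eventually (Iio_mem_nhds ?_)
        simp only [ha, sub_self, norm_zero]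
        positivity
      filter_upwards [h6, (F.triv (x j)).open_source.mem_nhds (F.mem (x j))] with e he1 he2
      exact ⟨he2, he1⟩
    exact h3.eventually h4
  filter_upwards [e1, e2] with x' hx1 hx2 t ht
  obtain ⟨u', hu'1, hu'2⟩ := hx1
  rw [ht 0] at hu'1
  have hFH := hu'1.self_of_nhdsSet
  have hzj : ∀ j, ∀ w ∈ closedBall (0 : Fin (k + 1) → C2) σ,
      Near F (x j) (a j) (σ / 8) (w j) (u' (z j, w)) := by
    intro j w hw
    exact hu'2 (z j, w) ⟨mem_closedBall_zero_iff.2 (hR2 j), hw⟩ j rfl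
  obtain ⟨w, hw, hwφ⟩ := hs (Fin (k + 1) → C2)
    (fun w j => (F.triv (x j) (u' (z j, w))).2 - a j) σ hσ (by
      intro w hw
      refine differentiableAt_pi.2 fun j => ?_
      refine DifferentiableAt.sub_const ?_ _
      have hw' : w ∈ closedBall (0 : Fin (k + 1) → C2) σ := ball_subset_closedBall hw
      have h7 := hFH (z j, w) ⟨mem_closedBall_zero_iff.2 (hR2 j), hw'⟩
      have h8 : FH F t (fun w : Fin (k + 1) → C2 => u' (z j, w)) w :=
        FH.comp (q := fun w : Fin (k + 1) → C2 => (z j, w)) h7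
          ((differentiableAt_const _).prodMk differentiableAt_id)
      exact h8.diff (hzj j w hw').1)
    (by
      intro w hw
      have hw' : w ∈ closedBall (0 : Fin (k + 1) → C2) σ := ball_subset_closedBall hw
      refine (pi_norm_le_iff_of_nonneg (by positivity)).2 fun j => ?_
      have h9 := (hzj j w hw').2
      have h10 : ((fun j => (F.triv (x j) (u' (z j, w))).2 - a j) - w) j =
          (F.triv (x j) (u' (z j, w))).2 - (a j + w j) := by
        simp only [Pi.sub_apply]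
        abel
      rw [h10]
      exact h9.le)
    (fun j => (F.triv (x j) (x' j)).2 - a j)
    ((pi_norm_le_iff_of_nonneg (by positivity)).2 fun j => (hx2 j).2.le)
  have hw' : w ∈ closedBall (0 : Fin (k + 1) → C2) σ := ball_subset_closedBall hw
  refine ⟨fun y => u' (y, w), ?_, ?_⟩
  · intro y hy
    have h7 := hFH (y, w) ⟨closedBall_subset_closedBall hR1 hy, hw'⟩
    exact FH.comp (q := fun y : Fin m → ℂ => (y, w)) h7
      (differentiableAt_id.prodMk (differentiableAt_const _))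
  · intro j
    change u' (z j, w) = x' j
    have h11 := congrFun hwφ j
    have h12 : (F.triv (x j) (u' (z j, w))).2 = (F.triv (x j) (x' j)).2 := by
      have h13 : (F.triv (x j) (u' (z j, w))).2 - a j = (F.triv (x j) (x' j)).2 - a j := h11
      exact sub_left_injective h13
    have h14 : F.p (u' (z j, w)) = t :=
      (hFH (z j, w) ⟨mem_closedBall_zero_iff.2 (hR2 j), hw'⟩).1.self_of_nhds
    refine (F.triv (x j)).injOn (hzj j w hw').1 (hx2 j).1 ?_
    rw [F.mk_eq (x j) (hzj j w hw').1, F.mk_eq (x j) (hx2 j).1, h12, h14, ht j]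

end Vale.Agent.P290.R2.H236
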