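import Vale.Agent.P290.R2.H596.Spec2
import Vale.Agent.P290.R2.H236.Nearby

/-! Interpolation of bounded 1-jets near a tuple of points of the central fibre. -/

open Set Filter Metric
open scoped Topology

namespace Vale.Agent.P290.R2.H236

open Vale.Agent.P290 Vale.Agent.P290.K Vale.Agent.P290.H580 Vale.Agent.P290.H805
open Vale.Agent.P290.R2.H596

theorem interpV (hi : StInterp) (V : Type) [NormedAddCommGroup V] [NormedSpace ℂ V]
    [FiniteDimensional ℂ V] (k : ℕ) (z : Fin k → V) (hz : Function.Injective z) (c : Fin k → ℂ) :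
    ∃ P : V → ℂ, Differentiable ℂ P ∧ ∀ j, P (z j) = c j := by
  let e : V ≃L[ℂ] (Fin (Module.finrank ℂ V) → ℂ) := ContinuousLinearEquiv.ofFinrankEq (by simp)
  obtain ⟨P, hP1, hP2⟩ := hi _ k (fun j => e (z j)) (e.injective.comp hz) c
  exact ⟨fun v => P (e v), hP1.comp e.differentiable, hP2⟩

theorem solve {V : Type} [NormedAddCommGroup V] [NormedSpace ℂ V] (N : C2 →L[ℂ] C2)
    (hN : ‖N‖ ≤ 1 / 8) (L' : V →L[ℂ] C2) :
    ∃ Lam : V →L[ℂ] C2, (∀ v, Lam v + N (Lam v) = L' v) ∧ ‖Lam‖ ≤ 2 * ‖L'‖ := by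
  set U : (C2 →L[ℂ] C2)ˣ := Units.oneSub (-N) (by rw [norm_neg]; linarith) with hU
  have hUv : ∀ y, (U : C2 →L[ℂ] C2) y = y + N y := by
    intro y
    rw [hU, Units.val_oneSub]
    simp
  have h1 : ∀ v, ((↑U⁻¹ : C2 →L[ℂ] C2) (L' v)) + N ((↑U⁻¹ : C2 →L[ℂ] C2) (L' v)) = L' v := by
    intro v
    rw [← hUv]
    have h2 : (U : C2 →L[ℂ] C2) * (↑U⁻¹ : C2 →L[ℂ] C2) = 1 := U.mul_inv
    calc (U : C2 →L[ℂ] C2) ((↑U⁻¹ : C2 →L[ℂ] C2) (L' v)) =
          ((U : C2 →L[ℂ] C2) * (↑U⁻¹ : C2 →L[ℂ] C2)) (L' v) := rfl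
      _ = L' v := by rw [h2]; rfl
  refine ⟨(↑U⁻¹ : C2 →L[ℂ] C2).comp L', h1, ?_⟩
  refine ContinuousLinearMap.opNorm_le_bound _ (by positivity) fun v => ?_
  set y : C2 := (↑U⁻¹ : C2 →L[ℂ] C2) (L' v) with hy
  change ‖y‖ ≤ _
  have h3 : y = L' v - N y := by
    rw [eq_sub_iff_add_eq]; exact h1 v
  have h4 : ‖y‖ ≤ ‖L' v‖ + ‖N y‖ := by
    calc ‖y‖ = ‖L' v - N y‖ := congrArg _ h3
      _ ≤ _ := norm_sub_le _ _
  have h5 : ‖N y‖ ≤ 1 / 8 * ‖y‖ :=
    (N.le_opNorm y).trans (mul_le_mul_of_nonneg_right hN (norm_nonneg _))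
  have h6 := L'.le_opNorm v
  have h7 := norm_nonneg y
  linarith

theorem comp_deriv {V : Type} [NormedAddCommGroup V] [NormedSpace ℂ V] {k : ℕ} (z : Fin k → V)
    (w₀ : Fin k → C2) (χ : Fin k → V → ℂ) (hχ : ∀ i, Differentiable ℂ (χ i))
    (hχz : ∀ i j, χ i (z j) = if i = j then 1 else 0) (Lam : Fin k → V →L[ℂ] C2) (j : Fin k) :
    HasFDerivAt (fun v => fun i => w₀ i + (χ i v) ^ 2 • Lam i (v - z i))
      (ContinuousLinearMap.pi fun i => if i = j then Lam i else 0) (z j) := by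
  refine hasFDerivAt_pi.2 fun i => ?_
  have h1 : HasFDerivAt (χ i) (fderiv ℂ (χ i) (z j)) (z j) := (hχ i (z j)).hasFDerivAt
  have h2 := h1.pow 2
  have h3 : HasFDerivAt (fun v => Lam i (v - z i)) (Lam i) (z j) := by
    have := (Lam i).hasFDerivAt.comp (z j) ((hasFDerivAt_id (𝕜 := ℂ) (z j)).sub_const (z i))
    rw [ContinuousLinearMap.comp_id] at this
    exact this
  have h4 := (h2.smul h3).const_add (w₀ i)
  refine h4.congr_fderiv ?_
  by_cases hij : i = j
  · subst hij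
    rw [if_pos rfl, hχz, if_pos rfl]
    ext v <;> simp
  · rw [if_neg hij, hχz, if_neg hij]
    ext v <;> simp

section
variable {T E : Type} [TopologicalSpace T] [TopologicalSpace E]

theorem wf_bound {V : Type} [NormedAddCommGroup V] [NormedSpace ℂ V] {k : ℕ} (z : Fin k → V)
    (w₀ : Fin k → C2) (χ : Fin k → V → ℂ) (Lam : Fin k → V →L[ℂ] C2) {σ R C B : ℝ}
    (hw₀ : ‖w₀‖ ≤ σ) (hRz : ∀ j, ‖z j‖ ≤ R) (hσ : 0 ≤ σ) (hR : 0 ≤ R) (_hC0 : 0 ≤ C) (hB : 0 ≤ B)
    (hC : ∀ i, ∀ v ∈ closedBall (0 : V) R, ‖χ i v‖ ≤ C) (hLam : ∀ i, ‖Lam i‖ ≤ B)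
    {v : V} (hv : v ∈ closedBall (0 : V) R) :
    ‖(fun i => w₀ i + (χ i v) ^ 2 • Lam i (v - z i) : Fin k → C2)‖ ≤
      σ + C ^ 2 * (B * (2 * R)) := by
  refine (pi_norm_le_iff_of_nonneg (by positivity)).2 fun i => ?_
  have h1 : ‖w₀ i‖ ≤ σ := (norm_le_pi_norm w₀ i).trans hw₀
  have h2 : ‖v - z i‖ ≤ 2 * R := by
    have h3 := norm_sub_le v (z i)
    have h4 := mem_closedBall_zero_iff.1 hv
    have h5 := hRz i
    linarith
  have h6 : ‖Lam i (v - z i)‖ ≤ B * (2 * R) :=
    ((Lam i).le_opNorm _).trans (mul_le_mul (hLam i) h2 (norm_nonneg _) hB)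
  have h7 : ‖(χ i v) ^ 2 • Lam i (v - z i)‖ ≤ C ^ 2 * (B * (2 * R)) := by
    rw [norm_smul, norm_pow]
    exact mul_le_mul (pow_le_pow_left₀ (norm_nonneg _) (hC i v hv) 2) h6 (norm_nonneg _)
      (by positivity)
  exact (norm_add_le _ _).trans (add_le_add h1 h7)

theorem finish (hs : StSurj) (F : Family T E) {t : T} {V : Type} [NormedAddCommGroup V]
    [NormedSpace ℂ V] {k : ℕ} (z : Fin (k + 1) → V) (x x' : Fin (k + 1) → E)
    (a : Fin (k + 1) → C2) {σ ε₁ R R' C B Λ ρ : ℝ} (hσ : 0 < σ) (hε₁ : 0 < ε₁) (hR1 : ρ ≤ R)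
    (hR2 : ∀ j, ‖z j‖ + ε₁ ≤ R) (hC0 : 0 ≤ C) (χ : Fin (k + 1) → V → ℂ)
    (hχ : ∀ i, Differentiable ℂ (χ i)) (hχz : ∀ i j, χ i (z j) = if i = j then 1 else 0)
    (hC : ∀ i, ∀ v ∈ closedBall (0 : V) R, ‖χ i v‖ ≤ C) (hB : B = 2 * (|Λ| + σ / (16 * ε₁)))
    (hR' : R' = σ + C ^ 2 * (B * (2 * R))) (u' : V × (Fin (k + 1) → C2) → E)
    (hFH : ∀ q ∈ closedBall (0 : V) R ×ˢ closedBall (0 : Fin (k + 1) → C2) R', FH F t u' q)
    (hN : ∀ q ∈ closedBall (0 : V) R ×ˢ closedBall (0 : Fin (k + 1) → C2) R', ∀ j,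
      q ∈ closedBall (z j) ε₁ ×ˢ closedBall (0 : Fin (k + 1) → C2) σ →
        Near F (x j) (a j) (σ / 16) (q.2 j) (u' q))
    (hx' : ∀ j, F.p (x' j) = t)
    (hx2 : ∀ j, x' j ∈ (F.triv (x j)).source ∧ ‖(F.triv (x j) (x' j)).2 - a j‖ < σ / 8)
    (L : Fin (k + 1) → V →L[ℂ] C2) (hL : ∀ j, ‖L j‖ ≤ Λ) :
    ∃ g : V → E, (∀ y ∈ closedBall (0 : V) ρ, FH F t g y) ∧
        ∀ j, FH F t g (z j) ∧ g (z j) = x' j ∧ g (z j) ∈ (F.triv (x j)).source ∧
          HasFDerivAt (fun y => (F.triv (x j) (g y)).2) (L j) (z j) := by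
  have hR0 : 0 ≤ R := (add_nonneg (norm_nonneg (z 0)) hε₁.le).trans (hR2 0)
  have hRz : ∀ j, ‖z j‖ ≤ R := fun j => by linarith [hR2 j]
  have hB0 : 0 ≤ B := by rw [hB]; positivity
  have hR'σ : σ ≤ R' := by
    rw [hR']
    have : 0 ≤ C ^ 2 * (B * (2 * R)) := by positivity
    linarith
  have hmem : ∀ j v (w : Fin (k + 1) → C2), v ∈ closedBall (z j) ε₁ →
      w ∈ closedBall (0 : Fin (k + 1) → C2) σ →
      (v, w) ∈ closedBall (0 : V) R ×ˢ closedBall (0 : Fin (k + 1) → C2) R' := by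
    intro j v w hv hw
    refine ⟨mem_closedBall_zero_iff.2 ?_, closedBall_subset_closedBall hR'σ hw⟩
    have h1 : ‖v - z j‖ ≤ ε₁ := mem_closedBall_iff_norm.1 hv
    have h2 : ‖v‖ ≤ ‖v - z j‖ + ‖z j‖ := by
      calc ‖v‖ = ‖(v - z j) + z j‖ := by rw [sub_add_cancel]
        _ ≤ _ := norm_add_le _ _
    linarith [hR2 j]
  have hN' : ∀ j v (w : Fin (k + 1) → C2), v ∈ closedBall (z j) ε₁ →
      w ∈ closedBall (0 : Fin (k + 1) → C2) σ → Near F (x j) (a j) (σ / 16) (w j) (u' (v, w)) :=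
    fun j v w hv hw => hN (v, w) (hmem j v w hv hw) j ⟨hv, hw⟩
  have hzj : ∀ j, z j ∈ closedBall (z j) ε₁ := fun j => mem_closedBall_self hε₁.le
  have hd : ∀ j v (w : Fin (k + 1) → C2), v ∈ closedBall (z j) ε₁ →
      w ∈ closedBall (0 : Fin (k + 1) → C2) σ →
      DifferentiableAt ℂ (fun q => (F.triv (x j) (u' q)).2) (v, w) :=
    fun j v w hv hw => (hFH _ (hmem j v w hv hw)).diff (hN' j v w hv hw).1
  -- the point `w₀`
  obtain ⟨w₀, hw₀, hwφ⟩ := hs (Fin (k + 1) → C2)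
    (fun w j => (F.triv (x j) (u' (z j, w))).2 - a j) (σ / 2) (by positivity) (by
      intro w hw
      refine differentiableAt_pi.2 fun j => ?_
      refine DifferentiableAt.sub_const ?_ _
      have hw' : w ∈ closedBall (0 : Fin (k + 1) → C2) σ :=
        (ball_subset_ball (by linarith)).trans ball_subset_closedBall hw
      exact DifferentiableAt.comp (g := fun q => (F.triv (x j) (u' q)).2)
        (f := fun w : Fin (k + 1) → C2 => (z j, w)) w (hd j (z j) w (hzj j) hw')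
        ((differentiableAt_const _).prodMk differentiableAt_id))
    (by
      intro w hw
      have hw' : w ∈ closedBall (0 : Fin (k + 1) → C2) σ :=
        (ball_subset_ball (by linarith)).trans ball_subset_closedBall hw
      refine (pi_norm_le_iff_of_nonneg (by positivity)).2 fun j => ?_
      have h9 := (hN' j (z j) w (hzj j) hw').2
      have h10 : ((fun j => (F.triv (x j) (u' (z j, w))).2 - a j) - w) j =
          (F.triv (x j) (u' (z j, w))).2 - (a j + w j) := by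
        simp only [Pi.sub_apply]
        abel
      rw [h10]
      linarith)
    (fun j => (F.triv (x j) (x' j)).2 - a j)
    ((pi_norm_le_iff_of_nonneg (by positivity)).2 fun j => by linarith [(hx2 j).2])
  have hw₀n : ‖w₀‖ < σ / 2 := mem_ball_zero_iff.1 hw₀
  have hw₀' : w₀ ∈ closedBall (0 : Fin (k + 1) → C2) σ := by
    rw [mem_closedBall_zero_iff]; linarith
  -- the derivatives
  set D : Fin (k + 1) → (V × (Fin (k + 1) → C2)) →L[ℂ] C2 := fun j =>
    fderiv ℂ (fun q => (F.triv (x j) (u' q)).2) (z j, w₀) with hD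
  have hDd : ∀ j, HasFDerivAt (fun q => (F.triv (x j) (u' q)).2) (D j) (z j, w₀) := fun j =>
    (hd j (z j) w₀ (hzj j) hw₀').hasFDerivAt
  have hA : ∀ j, ‖(D j).comp (ContinuousLinearMap.inl ℂ V (Fin (k + 1) → C2))‖ ≤
      σ / (16 * ε₁) := by
    intro j
    have h1 : HasFDerivAt (fun v : V => (F.triv (x j) (u' (v, w₀))).2 - (a j + w₀ j))
        ((D j).comp (ContinuousLinearMap.inl ℂ V (Fin (k + 1) → C2))) (z j) :=
      (HasFDerivAt.comp (g := fun q => (F.triv (x j) (u' q)).2) (f := fun v : V => (v, w₀)) (z j)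
        (hDd j) (hasFDerivAt_prodMk_left (z j) w₀)).sub_const _
    rw [← h1.fderiv]
    refine (norm_fderiv_le_of_bound (δ := σ / 16) hε₁ ?_ ?_).trans_eq ?_
    · intro v hv
      refine DifferentiableAt.differentiableWithinAt ?_
      refine DifferentiableAt.sub_const ?_ _
      exact DifferentiableAt.comp (g := fun q => (F.triv (x j) (u' q)).2)
        (f := fun v : V => (v, w₀)) v (hd j v w₀ (ball_subset_closedBall hv) hw₀')
        (differentiableAt_id.prodMk (differentiableAt_const _))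
    · intro v hv
      exact (hN' j v w₀ (ball_subset_closedBall hv) hw₀').2.le
    · rw [div_div]
  have hBw : ∀ j, ‖(D j).comp (ContinuousLinearMap.inr ℂ V (Fin (k + 1) → C2)) -
      ContinuousLinearMap.proj j‖ ≤ 1 / 8 := by
    intro j
    have h1 : HasFDerivAt (fun w : Fin (k + 1) → C2 =>
        (F.triv (x j) (u' (z j, w))).2 - (a j + w j))
        ((D j).comp (ContinuousLinearMap.inr ℂ V (Fin (k + 1) → C2)) -
          ContinuousLinearMap.proj j) w₀ :=
      (HasFDerivAt.comp (g := fun q => (F.triv (x j) (u' q)).2)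
        (f := fun w : Fin (k + 1) → C2 => (z j, w)) w₀
        (hDd j) (hasFDerivAt_prodMk_right (z j) w₀)).sub
        ((ContinuousLinearMap.proj (R := ℂ) (φ := fun _ : Fin (k + 1) => C2)
          j).hasFDerivAt.const_add (a j))
    rw [← h1.fderiv]
    have hsub : ball w₀ (σ / 2) ⊆ closedBall (0 : Fin (k + 1) → C2) σ := by
      refine (ball_subset_ball' ?_).trans ball_subset_closedBall
      rw [dist_zero_right]
      linarith
    refine (norm_fderiv_le_of_bound (δ := σ / 16) (ρ := σ / 2) (by positivity) ?_ ?_).trans_eq ?_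
    · intro w hw
      refine DifferentiableAt.differentiableWithinAt ?_
      refine DifferentiableAt.sub ?_ ((differentiableAt_apply j w).const_add (a j))
      exact DifferentiableAt.comp (g := fun q => (F.triv (x j) (u' q)).2)
        (f := fun w : Fin (k + 1) → C2 => (z j, w)) w (hd j (z j) w (hzj j) (hsub hw))
        ((differentiableAt_const _).prodMk differentiableAt_id)
    · intro w hw
      exact (hN' j (z j) w (hzj j) (hsub hw)).2.le
    · field_simp
      norm_num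
  -- the linear equations
  have hLam : ∀ j, ∃ Lam : V →L[ℂ] C2, ‖Lam‖ ≤ B ∧ ∀ v,
      D j (v, Pi.single j (Lam v)) = L j v := by
    intro j
    obtain ⟨Lam, h1, h2⟩ := solve
      (((D j).comp (ContinuousLinearMap.inr ℂ V (Fin (k + 1) → C2)) -
        ContinuousLinearMap.proj j).comp (ContinuousLinearMap.single ℂ (fun _ => C2) j))
      (by
        refine ContinuousLinearMap.opNorm_le_bound _ (by norm_num) fun y => ?_
        have e1 : ‖(Pi.single j y : Fin (k + 1) → C2)‖ ≤ ‖y‖ := by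
          refine (pi_norm_le_iff_of_nonneg (norm_nonneg _)).2 fun i => ?_
          by_cases hij : i = j
          · subst hij; rw [Pi.single_eq_same]
          · rw [Pi.single_eq_of_ne hij, norm_zero]; exact norm_nonneg _
        have e2 := ((D j).comp (ContinuousLinearMap.inr ℂ V (Fin (k + 1) → C2)) -
          ContinuousLinearMap.proj j).le_opNorm (Pi.single j y)
        have e3 := mul_le_mul (hBw j) e1 (norm_nonneg _) (by norm_num)
        exact e2.trans e3)
      (L j - (D j).comp (ContinuousLinearMap.inl ℂ V (Fin (k + 1) → C2)))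
    refine ⟨Lam, ?_, fun v => ?_⟩
    · refine h2.trans ?_
      rw [hB]
      have h3 := norm_sub_le (L j) ((D j).comp (ContinuousLinearMap.inl ℂ V (Fin (k + 1) → C2)))
      have h4 := hA j
      have h5 := (hL j).trans (le_abs_self Λ)
      linarith
    · have h3 := h1 v
      have h4 : D j (v, Pi.single j (Lam v)) = D j (v, 0) + D j (0, Pi.single j (Lam v)) := by
        rw [← map_add]; simp
      simp only [ContinuousLinearMap.comp_apply, sub_apply,
        ContinuousLinearMap.inr_apply, ContinuousLinearMap.inl_apply,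
        ContinuousLinearMap.single_apply, ContinuousLinearMap.proj_apply,
        Pi.single_eq_same] at h3
      rw [h4]
      have h5 : D j (0, Pi.single j (Lam v)) = L j v - D j (v, 0) := by
        rw [← h3]; abel
      rw [h5]; abel
  choose Lam hLamB hLamE using hLam
  -- the map
  set Wf : V → (Fin (k + 1) → C2) := fun v i => w₀ i + (χ i v) ^ 2 • Lam i (v - z i) with hWf
  have hWfd : Differentiable ℂ Wf := by
    refine differentiable_pi.2 fun i => ?_
    have h1 : Differentiable ℂ (fun v => Lam i (v - z i)) :=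
      (Lam i).differentiable.comp (differentiable_id.sub_const _)
    exact (((hχ i).pow 2).smul h1).const_add _
  have hWfb : ∀ v ∈ closedBall (0 : V) R, Wf v ∈ closedBall (0 : Fin (k + 1) → C2) R' := by
    intro v hv
    rw [mem_closedBall_zero_iff, hR']
    exact wf_bound z w₀ χ Lam (by linarith) hRz hσ.le hR0 hC0 hB0 hC hLamB hv
  have hWfz : ∀ j, Wf (z j) = w₀ := by
    intro j
    funext i
    simp only [hWf, hχz]
    by_cases hij : i = j
    · subst hij; simp
    · simp [hij]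
  have hgFH : ∀ y ∈ closedBall (0 : V) R, FH F t (fun v => u' (v, Wf v)) y := by
    intro y hy
    exact FH.comp (q := fun v : V => (v, Wf v)) (hFH (y, Wf y) ⟨hy, hWfb y hy⟩)
      (differentiableAt_id.prodMk (hWfd y))
  have hgz : ∀ j, u' (z j, Wf (z j)) = x' j := by
    intro j
    rw [hWfz]
    have h11 := congrFun hwφ j
    have h12 : (F.triv (x j) (u' (z j, w₀))).2 = (F.triv (x j) (x' j)).2 := by
      have h13 : (F.triv (x j) (u' (z j, w₀))).2 - a j = (F.triv (x j) (x' j)).2 - a j := h11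
      exact sub_left_injective h13
    have h14 : F.p (u' (z j, w₀)) = t :=
      (hFH (z j, w₀) (hmem j (z j) w₀ (hzj j) hw₀')).1.self_of_nhds
    refine (F.triv (x j)).injOn (hN' j (z j) w₀ (hzj j) hw₀').1 (hx2 j).1 ?_
    rw [F.mk_eq (x j) (hN' j (z j) w₀ (hzj j) hw₀').1, F.mk_eq (x j) (hx2 j).1, h12, h14, hx' j]
  refine ⟨fun v => u' (v, Wf v), fun y hy => hgFH y (closedBall_subset_closedBall hR1 hy),
    fun j => ⟨hgFH (z j) (mem_closedBall_zero_iff.2 (hRz j)), hgz j, ?_, ?_⟩⟩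
  · change u' (z j, Wf (z j)) ∈ (F.triv (x j)).source
    rw [hgz]; exact (hx2 j).1
  · have h1 := comp_deriv z w₀ χ hχ hχz Lam j
    have h2 : HasFDerivAt (fun v : V => (v, Wf v)) ((ContinuousLinearMap.id ℂ V).prod
        (ContinuousLinearMap.pi fun i => if i = j then Lam i else 0)) (z j) :=
      (hasFDerivAt_id (z j)).prodMk h1
    have h3 : HasFDerivAt (fun q => (F.triv (x j) (u' q)).2) (D j) (z j, Wf (z j)) := by
      rw [hWfz]; exact hDd j
    have h4 := HasFDerivAt.comp (g := fun q => (F.triv (x j) (u' q)).2)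
      (f := fun v : V => (v, Wf v)) (z j) h3 h2
    refine h4.congr_fderiv ?_
    refine ContinuousLinearMap.ext fun v => ?_
    rw [ContinuousLinearMap.comp_apply, ContinuousLinearMap.prod_apply, ← hLamE j v]
    congr 2
    funext i
    by_cases hij : i = j
    · subst hij; simp
    · simp [hij]

end

theorem nearbyJet' (hL : StLocal) (hO : StOka) (hs : StSurj) (hi : StInterp) : StNearbyJet := by
  intro T E _ _ F t₀ _ _ _ hOka V _ _ _ k z hz ρ Λ x hx
  obtain ⟨n, hn1, hn2⟩ := exists_nodes (k + 1)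
  set a : Fin (k + 1) → C2 := fun j => (F.triv (x j) (x j)).2 with ha
  have htarget : ∀ j, (t₀, a j) ∈ (F.triv (x j)).target := by
    intro j
    have h1 : F.triv (x j) (x j) = (t₀, a j) := by
      rw [F.mk_eq (x j) (F.mem (x j)), hx j]
    rw [← h1]
    exact (F.triv (x j)).map_source (F.mem (x j))
  -- radius for the coordinates
  have hr0 : ∃ r > (0 : ℝ), ∀ j, ∀ v ∈ ball (a j) r, (t₀, v) ∈ (F.triv (x j)).target := by
    have h1 : ∀ j, ∀ᶠ r in 𝓝[>] (0 : ℝ), ∀ v ∈ ball (a j) r, (t₀, v) ∈ (F.triv (x j)).target := by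
      intro j
      have h2 : {v : C2 | (t₀, v) ∈ (F.triv (x j)).target} ∈ 𝓝 (a j) :=
        ((F.triv (x j)).open_target.preimage (Continuous.prodMk_right t₀)).mem_nhds (htarget j)
      obtain ⟨r, hr, h3⟩ := Metric.mem_nhds_iff.1 h2
      have h4 : ∀ᶠ s in 𝓝 (0 : ℝ), s < r := Iio_mem_nhds hr
      filter_upwards [nhdsWithin_le_nhds h4] with s hs v hv
      exact h3 (ball_subset_ball hs.le hv)
    obtain ⟨r, h5, h6⟩ := ((eventually_all.2 h1).and self_mem_nhdsWithin).exists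
    exact ⟨r, h6, h5⟩
  obtain ⟨r, hr, hball⟩ := hr0
  obtain ⟨ρ₀, hρ₀, hG⟩ := hL T E F t₀ (k + 1) n hn1 hn2 x hx
  obtain ⟨σ, hσ, hσ1, hσ2⟩ : ∃ σ > (0 : ℝ), σ ≤ ρ₀ ∧ σ < r :=
    ⟨min ρ₀ (r / 2), lt_min hρ₀ (by positivity), min_le_left _ _,
      (min_le_right _ _).trans_lt (by linarith)⟩
  obtain ⟨u, hu1, hu2⟩ := hG σ hσ hσ1 (fun j => {q | Near F (x j) (a j) (σ / 16) (q.1 j) q.2}) (by
    intro j w hw
    have hwj : ‖w j‖ ≤ σ := (norm_le_pi_norm w j).trans (mem_closedBall_zero_iff.1 hw)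
    have hmem : (t₀, a j + w j) ∈ (F.triv (x j)).target := by
      refine hball j _ ?_
      rw [mem_ball_iff_norm, add_sub_cancel_left]
      linarith
    have h1 : Near F (x j) (a j) (σ / 16) (w j) ((F.triv (x j)).symm (t₀, a j + w j)) := by
      refine ⟨(F.triv (x j)).map_target hmem, ?_⟩
      rw [(F.triv (x j)).right_inv hmem]
      simpa using hσ
    have h2 := near_nhds F (x j) (a j) (σ / 16) h1
    have h3 : Tendsto (fun q : (Fin (k + 1) → C2) × E => (q.1 j, q.2))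
        (𝓝 (w, (F.triv (x j)).symm (t₀, a j + w j)))
        (𝓝 (w j, (F.triv (x j)).symm (t₀, a j + w j))) :=
      Continuous.tendsto (by fun_prop) (w, (F.triv (x j)).symm (t₀, a j + w j))
    exact h3.eventually h2)
  have hKg : Good (closedBall (0 : ℂ) 1 ×ˢ closedBall (0 : Fin (k + 1) → C2) σ) :=
    ⟨(isCompact_closedBall _ _).prod (isCompact_closedBall _ _),
      (convex_closedBall _ _).prod (convex_closedBall _ _)⟩
  obtain ⟨G, hG1, hG2⟩ := hO T E F t₀ hOka (ℂ × (Fin (k + 1) → C2)) _ hKg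
    ⟨(0, 0), mem_closedBall_self zero_le_one, mem_closedBall_self hσ.le⟩ u hu1
    {q | ∀ j, q.1.1 = n j → Near F (x j) (a j) (σ / 16) (q.1.2 j) q.2} (by
      rintro ⟨v, w⟩ ⟨hv, hw⟩
      refine nodes_nhds F x a (σ / 16) n fun j hj => ?_
      have h1 : v = n j := hj
      rw [h1]
      exact hu2 j w hw)
  obtain ⟨P, hP1, hP2⟩ := interpV hi V (k + 1) z hz n
  have hg0 : ∀ q : V × (Fin (k + 1) → C2), FH F t₀ (fun q => G (P q.1, q.2)) q := by
    intro q
    refine FH.comp (q := fun q : V × (Fin (k + 1) → C2) => (P q.1, q.2)) (hG1 _) ?_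
    exact ((hP1.comp differentiable_fst).prodMk differentiable_snd) q
  -- the radius around the nodes
  obtain ⟨ε₁, hε₁, hnear⟩ : ∃ ε₁ > (0 : ℝ), ∀ j, ∀ w ∈ closedBall (0 : Fin (k + 1) → C2) σ,
      ∀ v, dist v (z j) ≤ ε₁ → Near F (x j) (a j) (σ / 16) (w j) (G (P v, w)) := by
    have h1 : ∀ j, ∃ δ > (0 : ℝ), ∀ w ∈ closedBall (0 : Fin (k + 1) → C2) σ, ∀ v,
        dist v (z j) ≤ δ → (w, v) ∈ {q : (Fin (k + 1) → C2) × V |
          Near F (x j) (a j) (σ / 16) (q.1 j) (G (P q.2, q.1))} := by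
      intro j
      refine Tube.exists_uniform (isCompact_closedBall _ _) (z j) _ fun w hw => ?_
      have h2 : Near F (x j) (a j) (σ / 16) (w j) (G (P (z j), w)) := by
        rw [hP2]
        exact hG2 (n j, w) ⟨mem_closedBall_zero_iff.2 (hn1 j).le, hw⟩ j rfl
      have h3 := near_nhds F (x j) (a j) (σ / 16) h2
      have h4 : Tendsto (fun q : (Fin (k + 1) → C2) × V => (q.1 j, G (P q.2, q.1)))
          (𝓝 (w, z j)) (𝓝 (w j, G (P (z j), w))) := by
        have h5 : ContinuousAt (fun q : V × (Fin (k + 1) → C2) => G (P q.1, q.2)) (z j, w) :=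
          (hg0 (z j, w)).2.1
        have h6 : Tendsto (fun q : (Fin (k + 1) → C2) × V => (q.2, q.1)) (𝓝 (w, z j))
            (𝓝 (z j, w)) := continuous_swap.tendsto (w, z j)
        have h7 : Tendsto (fun q : (Fin (k + 1) → C2) × V => q.1 j) (𝓝 (w, z j)) (𝓝 (w j)) :=
          Continuous.tendsto (by fun_prop) (w, z j)
        exact h7.prodMk_nhds (h5.tendsto.comp h6)
      exact h4.eventually h3
    choose δ hδ hδ2 using h1
    obtain ⟨j₀, hj₀⟩ := Finite.exists_min δ
    exact ⟨δ j₀, hδ j₀, fun j w hw v hv => hδ2 j w hw v (hv.trans (hj₀ j))⟩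
  -- scalar functions
  have hχe : ∀ i : Fin (k + 1), ∃ χ : V → ℂ, Differentiable ℂ χ ∧
      ∀ j, χ (z j) = if i = j then 1 else 0 := fun i =>
    interpV hi V (k + 1) z hz fun j => if i = j then 1 else 0
  choose χ hχ hχz using hχe
  -- the large balls
  obtain ⟨R, hR1, hR2⟩ : ∃ R : ℝ, ρ ≤ R ∧ ∀ j, ‖z j‖ + ε₁ ≤ R := by
    obtain ⟨j, hj⟩ := Finite.exists_max fun j => ‖z j‖
    exact ⟨max ρ (‖z j‖ + ε₁), le_max_left _ _,
      fun i => (add_le_add (hj i) le_rfl).trans (le_max_right _ _)⟩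
  have hR0 : 0 ≤ R := (add_nonneg (norm_nonneg (z 0)) hε₁.le).trans (hR2 0)
  have hRz : ∀ j, ‖z j‖ ≤ R := fun j => by linarith [hR2 j]
  obtain ⟨C, hC0, hC⟩ : ∃ C : ℝ, 0 ≤ C ∧ ∀ i, ∀ v ∈ closedBall (0 : V) R, ‖χ i v‖ ≤ C := by
    have : ProperSpace V := FiniteDimensional.proper ℂ V
    have h1 : ∀ i, ∃ C : ℝ, ∀ v ∈ closedBall (0 : V) R, ‖χ i v‖ ≤ C := fun i =>
      (isCompact_closedBall (0 : V) R).exists_bound_of_continuousOn (hχ i).continuous.continuousOn
    choose C hC using h1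
    obtain ⟨j, hj⟩ := Finite.exists_max C
    have h2 := hC j 0 (mem_closedBall_self hR0)
    exact ⟨C j, (norm_nonneg _).trans h2, fun i v hv => (hC i v hv).trans (hj i)⟩
  obtain ⟨B, hB⟩ : ∃ B : ℝ, B = 2 * (|Λ| + σ / (16 * ε₁)) := ⟨_, rfl⟩
  have hB0 : 0 ≤ B := by rw [hB]; positivity
  obtain ⟨R', hR'⟩ : ∃ R' : ℝ, R' = σ + C ^ 2 * (B * (2 * R)) := ⟨_, rfl⟩
  have hR'σ : σ ≤ R' := by
    rw [hR']
    have : 0 ≤ C ^ 2 * (B * (2 * R)) := by positivity
    linarith
  have hKg' : Good (closedBall (0 : V) R ×ˢ closedBall (0 : Fin (k + 1) → C2) R') := by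
    have : ProperSpace V := FiniteDimensional.proper ℂ V
    have h1 : Convex ℝ (closedBall (0 : V) R) := by
      exact convex_closedBall _ _
    exact ⟨(isCompact_closedBall _ _).prod (isCompact_closedBall _ _),
      h1.prod (convex_closedBall _ _)⟩
  have hdef := deformation hKg' (u₀ := fun q => G (P q.1, q.2)) (Eventually.of_forall hg0)
    {q | ∀ j, q.1 ∈ closedBall (z j) ε₁ ×ˢ closedBall (0 : Fin (k + 1) → C2) σ →
      Near F (x j) (a j) (σ / 16) (q.1.2 j) q.2} (by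
      rintro ⟨v, w⟩ -
      have h1 : ∀ j, ∀ᶠ q : (V × (Fin (k + 1) → C2)) × E in 𝓝 ((v, w), G (P v, w)),
          q.1 ∈ closedBall (z j) ε₁ ×ˢ closedBall (0 : Fin (k + 1) → C2) σ →
          Near F (x j) (a j) (σ / 16) (q.1.2 j) q.2 := by
        intro j
        by_cases hj : (v, w) ∈ closedBall (z j) ε₁ ×ˢ closedBall (0 : Fin (k + 1) → C2) σ
        · have h2 : Tendsto (fun q : (V × (Fin (k + 1) → C2)) × E => (q.1.2 j, q.2))
              (𝓝 ((v, w), G (P v, w))) (𝓝 (w j, G (P v, w))) :=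
            Continuous.tendsto (by fun_prop) ((v, w), G (P v, w))
          have h3 := hnear j w hj.2 v (mem_closedBall.1 hj.1)
          filter_upwards [h2.eventually (near_nhds F (x j) (a j) (σ / 16) h3)] with q hq _ using hq
        · have h3 : Tendsto (fun q : (V × (Fin (k + 1) → C2)) × E => q.1)
              (𝓝 ((v, w), G (P v, w))) (𝓝 (v, w)) := continuous_fst.tendsto _
          have h4 : IsClosed (closedBall (z j) ε₁ ×ˢ closedBall (0 : Fin (k + 1) → C2) σ) :=
            isClosed_closedBall.prod isClosed_closedBall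
          filter_upwards [h3.eventually (h4.isOpen_compl.mem_nhds hj)] with q hq hq2
          exact absurd hq2 hq
      exact eventually_all.2 h1)
  -- points near `x`
  have e1 := ((((continuousAt_p F (x 0)).tendsto.comp ((continuous_apply 0).tendsto x)))).eventually
    (by rw [hx 0]; exact hdef)
  have e2 : ∀ᶠ x' in 𝓝 x, ∀ j, x' j ∈ (F.triv (x j)).source ∧
      ‖(F.triv (x j) (x' j)).2 - a j‖ < σ / 8 := by
    refine eventually_all.2 fun j => ?_
    have h3 : Tendsto (fun x' : Fin (k + 1) → E => x' j) (𝓝 x) (𝓝 (x j)) :=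
      (continuous_apply j).tendsto x
    have h4 : ∀ᶠ e in 𝓝 (x j), e ∈ (F.triv (x j)).source ∧
        ‖(F.triv (x j) e).2 - a j‖ < σ / 8 := by
      have h5 : ContinuousAt (fun e => ‖(F.triv (x j) e).2 - a j‖) (x j) :=
        ((continuous_snd.continuousAt.comp ((F.triv (x j)).continuousAt (F.mem (x j)))).sub
          continuousAt_const).norm
      have h6 : ∀ᶠ e in 𝓝 (x j), ‖(F.triv (x j) e).2 - a j‖ < σ / 8 := by
        refine h5.eventually (Iio_mem_nhds ?_)
        simp only [ha, sub_self, norm_zero]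
        positivity
      filter_upwards [h6, (F.triv (x j)).open_source.mem_nhds (F.mem (x j))] with e he1 he2
      exact ⟨he2, he1⟩
    exact h3.eventually h4
  filter_upwards [e1, e2] with x' hx1 hx2 t ht L hLL
  obtain ⟨u', hu'1, hu'2⟩ := hx1
  simp only [Function.comp, ht 0] at hu'1
  have hFH := hu'1.self_of_nhdsSet
  exact finish hs F z x x' a hσ hε₁ hR1 hR2 hC0 χ hχ hχz hC hB hR' u' hFH
    (fun q hq j hj => hu'2 q hq j hj) ht hx2 L hLL

end Vale.Agent.P290.R2.H236
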