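import Vale.Agent.P290.R2.H596.Spec

/-! Arbitrary values at the nodes (second version). -/

open Set Filter Metric
open scoped Topology

namespace Vale.Agent.P290.R2.H236

open Vale.Agent.P290 Vale.Agent.P290.K Vale.Agent.P290.H580 Vale.Agent.P290.H805
open Vale.Agent.P290.R2.H596

theorem update_induction {k : ℕ} {X : Type} (P : (Fin k → X) → Prop) (A B : Fin k → X)
    (h0 : P A) (hs : ∀ H j, P H → H j = A j → P (Function.update H j (B j))) : P B := by
  classical
  have key : ∀ s : Finset (Fin k), P (fun j => if j ∈ s then B j else A j) := by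
    intro s
    induction s using Finset.induction_on with
    | empty => simpa using h0
    | insert a s ha ih =>
      have h1 := hs _ a ih (by simp [ha])
      have h2 : Function.update (fun j => if j ∈ s then B j else A j) a (B a)
          = fun j => if j ∈ insert a s then B j else A j := by
        funext j
        by_cases hj : j = a
        · subst hj; simp
        · rw [Function.update_of_ne hj]
          simp [hj]
      rw [h2] at h1
      exact h1
  have := key Finset.univ
  simpa using this

variable {T E : Type} [TopologicalSpace T] [TopologicalSpace E]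

theorem GG_const (F : Family T E) (t₀ : T) {k : ℕ} (n : Fin k → ℂ) (x : Fib F t₀) :
    GG F t₀ n (fun _ _ => x.val) := by
  refine ⟨1, one_pos, fun ρ _ _ 𝒪 h𝒪 => ⟨fun _ => x.val, ?_, ?_⟩⟩
  · refine Eventually.of_forall fun z => ?_
    exact ⟨Eventually.of_forall fun _ => x.prop, continuousAt_const, differentiableAt_const _⟩
  · intro j w hw
    exact mem_of_mem_nhds (h𝒪 j w hw)

theorem triv_symm_fib (F : Family T E) (t₀ : T) (y : E) (c : Fib F t₀)
    (hc : c.val ∈ (F.triv y).source) :
    (F.triv y).symm (t₀, (F.triv y c.val).2) = c.val := by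
  have h1 : F.triv y c.val = (t₀, (F.triv y c.val).2) := by
    rw [F.mk_eq y hc, c.prop]
  rw [← h1, (F.triv y).left_inv hc]

/-- a small ball of coordinates at a point of the fibre -/
theorem exists_ball (F : Family T E) (t₀ : T) (y : Fib F t₀) :
    ∃ R > (0 : ℝ), ∀ v ∈ ball ((F.triv y.val y.val).2) (3 * R), (t₀, v) ∈ (F.triv y.val).target := by
  have h0 : (t₀, (F.triv y.val y.val).2) ∈ (F.triv y.val).target := by
    have h1 : F.triv y.val y.val = (t₀, (F.triv y.val y.val).2) := by
      rw [F.mk_eq y.val (F.mem y.val), y.prop]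
    rw [← h1]
    exact (F.triv y.val).map_source (F.mem y.val)
  have h2 : {v : C2 | (t₀, v) ∈ (F.triv y.val).target} ∈ 𝓝 ((F.triv y.val y.val).2) :=
    ((F.triv y.val).open_target.preimage (Continuous.prodMk_right t₀)).mem_nhds h0
  obtain ⟨r, hr, h3⟩ := Metric.mem_nhds_iff.1 h2
  refine ⟨r / 3, by positivity, fun v hv => h3 ?_⟩
  have : 3 * (r / 3) = r := by ring
  rwa [this] at hv

theorem const_step (hS : StStep) (F : Family T E) (t₀ : T) [ConnectedSpace (Fib F t₀)] {k : ℕ}
    (n : Fin k → ℂ) (hn : ∀ j, ‖n j‖ = 1) (hinj : Function.Injective n)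
    (H : Fin k → (Fin k → C2) → E) (hH : GG F t₀ n H) (j : Fin k) (a b : Fib F t₀)
    (ha : H j = fun _ => a.val) : GG F t₀ n (Function.update H j (fun _ => b.val)) := by
  classical
  set S : Set (Fib F t₀) := {c | GG F t₀ n (Function.update H j (fun _ => c.val))} with hSdef
  have haS : a ∈ S := by
    change GG F t₀ n (Function.update H j (fun _ => a.val))
    rw [← ha, Function.update_eq_self]
    exact hH
  have key : ∀ y : Fib F t₀, ∃ U : Set (Fib F t₀), IsOpen U ∧ y ∈ U ∧
      ∀ c ∈ U, ∀ d ∈ U, c ∈ S → d ∈ S := by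
    intro y
    obtain ⟨R, hR, hball⟩ := exists_ball F t₀ y
    refine ⟨{z | z.val ∈ (F.triv y.val).source ∧
      (F.triv y.val z.val).2 ∈ ball ((F.triv y.val y.val).2) R}, ?_, ?_, ?_⟩
    · have h1 : IsOpen ((F.triv y.val).source ∩
          (F.triv y.val) ⁻¹' (Prod.snd ⁻¹' (ball ((F.triv y.val y.val).2) R))) :=
        (F.triv y.val).isOpen_inter_preimage (isOpen_ball.preimage continuous_snd)
      exact h1.preimage continuous_val
    · exact ⟨F.mem _, mem_ball_self hR⟩
    · rintro c ⟨hc1, hc2⟩ d ⟨hd1, hd2⟩ hcS
      have h2 := hS T E F t₀ k n hn hinj (Function.update H j (fun _ => c.val)) hcS j y.val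
        ((F.triv y.val y.val).2) R hR hball
        (by rw [Function.update_self]; exact continuousAt_const)
        (by rw [Function.update_self]; exact hc1)
        (by rw [Function.update_self]; exact hc2)
        (fun _ => (F.triv y.val d.val).2) (differentiable_const _) hd2
      rw [Function.update_idem] at h2
      simp only [triv_symm_fib F t₀ y.val d hd1] at h2
      exact h2
  have hopen : IsOpen S := by
    rw [isOpen_iff_mem_nhds]
    intro y hy
    obtain ⟨U, hU, hyU, h⟩ := key y
    exact mem_of_superset (hU.mem_nhds hyU) fun c hc => h y hyU c hc hy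
  have hclosed : IsClosed S := by
    rw [← isOpen_compl_iff, isOpen_iff_mem_nhds]
    intro y hy
    obtain ⟨U, hU, hyU, h⟩ := key y
    exact mem_of_superset (hU.mem_nhds hyU) fun c hc hcS => hy (h c hc y hyU hcS)
  have huniv : S = univ := IsClopen.eq_univ ⟨hclosed, hopen⟩ ⟨a, haS⟩
  have : b ∈ S := by rw [huniv]; exact mem_univ _
  exact this

theorem local' (hS : StStep) : StLocal := by
  intro T E _ _ F t₀ _ k n hn hinj x hx
  obtain ⟨x₀⟩ : Nonempty (Fib F t₀) := inferInstance
  have h1 : GG F t₀ n (fun j _ => x j) := by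
    refine update_induction (GG F t₀ n) (fun _ _ => x₀.val) (fun j _ => x j)
      (GG_const F t₀ n x₀) ?_
    intro H j hH hj
    exact const_step hS F t₀ n hn hinj H hH j x₀ ⟨x j, hx j⟩ hj
  refine update_induction (GG F t₀ n) (fun j _ => x j)
    (fun j w => (F.triv (x j)).symm (t₀, (F.triv (x j) (x j)).2 + w j)) h1 ?_
  intro H j hH hj
  obtain ⟨R, hR, hball⟩ := exists_ball F t₀ ⟨x j, hx j⟩
  refine hS T E F t₀ k n hn hinj H hH j (x j) ((F.triv (x j) (x j)).2) R hR hball ?_ ?_ ?_
    (fun w => (F.triv (x j) (x j)).2 + w j) ?_ ?_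
  · rw [hj]; exact continuousAt_const
  · rw [hj]; exact F.mem _
  · rw [hj]; exact mem_ball_self hR
  · exact (differentiable_const _).add (differentiable_apply j)
  · simpa using hR

end Vale.Agent.P290.R2.H236
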