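import Vale.Agent.P290.R2.H596.Spec

/-! One step: changing the value at one node (second version). -/

open Set Filter Metric
open scoped Topology

namespace Vale.Agent.P290.R2.H236

open Vale.Agent.P290 Vale.Agent.P290.K Vale.Agent.P290.H580 Vale.Agent.P290.H805
open Vale.Agent.P290.R2.H596

theorem re_lt_one {z w : ℂ} (hz : ‖z‖ = 1) (hw : ‖w‖ = 1) (hne : w ≠ z) :
    (starRingEnd ℂ z * w).re < 1 := by
  have h1 : (starRingEnd ℂ z * w).re ≤ 1 := by
    refine (Complex.re_le_norm _).trans ?_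
    simp [hz, hw]
  refine lt_of_le_of_ne h1 fun h => hne ?_
  have h2 : ‖starRingEnd ℂ z * w‖ = 1 := by simp [hz, hw]
  have h3 : starRingEnd ℂ z * w = 1 := by
    have h4 : Complex.normSq (starRingEnd ℂ z * w) = 1 := by
      rw [Complex.normSq_eq_norm_sq, h2]; norm_num
    rw [Complex.normSq_apply, h] at h4
    have h5 : (starRingEnd ℂ z * w).im = 0 := by nlinarith
    exact Complex.ext (by simpa using h) (by simpa using h5)
  have h6 : z * (starRingEnd ℂ z * w) = z := by rw [h3, mul_one]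
  have h7 : z * starRingEnd ℂ z = 1 := by
    rw [Complex.mul_conj, Complex.normSq_eq_norm_sq, hz]; norm_num
  rw [← mul_assoc, h7, one_mul] at h6
  exact h6

theorem eq_of_re {z w : ℂ} (hz : ‖z‖ = 1) (hw : ‖w‖ ≤ 1) (h : (starRingEnd ℂ z * w).re = 1) :
    w = z := by
  have h2 : ‖starRingEnd ℂ z * w‖ ≤ 1 := by simpa [hz] using hw
  have h3 : starRingEnd ℂ z * w = 1 := by
    have h4 : Complex.normSq (starRingEnd ℂ z * w) ≤ 1 := by
      rw [Complex.normSq_eq_norm_sq]
      have := norm_nonneg (starRingEnd ℂ z * w)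
      nlinarith
    rw [Complex.normSq_apply, h] at h4
    have h5 : (starRingEnd ℂ z * w).im = 0 := by nlinarith
    exact Complex.ext (by simpa using h) (by simpa using h5)
  have h6 : z * (starRingEnd ℂ z * w) = z := by rw [h3, mul_one]
  have h7 : z * starRingEnd ℂ z = 1 := by
    rw [Complex.mul_conj, Complex.normSq_eq_norm_sq, hz]; norm_num
  rw [← mul_assoc, h7, one_mul] at h6
  exact h6

theorem step' (hM : StMove) : StStep := by
  intro T E _ _ F t₀ k n hn hinj H hH j y a R hR hball hcont hsrc hval h hdiff h0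
  classical
  obtain ⟨ρ₀, hρ₀, hG⟩ := hH
  -- the neighbourhood for the node `j`
  set Oj : Set E := (F.triv y).source ∩ (F.triv y) ⁻¹' (Prod.snd ⁻¹' ball a R) with hOj
  have hOjo : IsOpen Oj :=
    (F.triv y).isOpen_inter_preimage (isOpen_ball.preimage continuous_snd)
  have e1 : ∀ᶠ w in 𝓝 (0 : Fin k → C2), H j w ∈ Oj := hcont.eventually (hOjo.mem_nhds ⟨hsrc, hval⟩)
  have e2 : ∀ᶠ w in 𝓝 (0 : Fin k → C2), h w ∈ ball a R :=
    hdiff.continuous.continuousAt.eventually (isOpen_ball.mem_nhds h0)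
  obtain ⟨ρ₁, hρ₁, h1⟩ := Metric.nhds_basis_closedBall.mem_iff.1 (e1.and e2)
  refine ⟨min ρ₀ ρ₁, lt_min hρ₀ hρ₁, ?_⟩
  intro ρ hρ hρle 𝒪 h𝒪
  have hsub : closedBall (0 : Fin k → C2) ρ ⊆ closedBall 0 ρ₁ :=
    closedBall_subset_closedBall (hρle.trans (min_le_right _ _))
  obtain ⟨u, hu1, hu2⟩ := hG ρ hρ (hρle.trans (min_le_left _ _))
    (fun i => if i = j then Prod.snd ⁻¹' Oj else interior (𝒪 i)) (by
      intro i w hw
      by_cases hij : i = j
      · subst hij
        rw [if_pos rfl]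
        exact (hOjo.preimage continuous_snd).mem_nhds (h1 (hsub hw)).1
      · rw [if_neg hij]
        have := h𝒪 i w hw
        rw [Function.update_of_ne hij] at this
        exact interior_mem_nhds.2 this)
  -- the linear form
  set ℓ : (ℂ × (Fin k → C2)) →L[ℂ] ℂ :=
    (starRingEnd ℂ (n j)) • ContinuousLinearMap.fst ℂ ℂ (Fin k → C2) with hℓ
  have hℓa : ∀ z : ℂ × (Fin k → C2), ℓ z = starRingEnd ℂ (n j) * z.1 := fun z => by
    simp [hℓ]
  set K : Set (ℂ × (Fin k → C2)) := closedBall (0 : ℂ) 1 ×ˢ closedBall (0 : Fin k → C2) ρ with hK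
  have hKg : Good K :=
    ⟨(isCompact_closedBall _ _).prod (isCompact_closedBall _ _),
      (convex_closedBall _ _).prod (convex_closedBall _ _)⟩
  have hK1 : ∀ z ∈ K, ‖z.1‖ ≤ 1 := fun z hz => mem_closedBall_zero_iff.1 hz.1
  have hnode : ∀ z ∈ K, (ℓ z).re = 1 → u z ∈ Oj := by
    intro z hz hre
    rw [hℓa] at hre
    have hz1 : z.1 = n j := eq_of_re (hn j) (hK1 z hz) hre
    have h3 := hu2 j z.2 hz.2
    rw [if_pos rfl] at h3
    have h4 : u (n j, z.2) ∈ Oj := h3
    rw [← hz1] at h4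
    exact h4
  -- `η`
  obtain ⟨η, hη, hη2⟩ : ∃ η > (0 : ℝ), ∀ i, i ≠ j → (starRingEnd ℂ (n j) * n i).re ≤ 1 - η := by
    have h5 : ∀ i, ∀ᶠ η in 𝓝[>] (0 : ℝ), i ≠ j → (starRingEnd ℂ (n j) * n i).re ≤ 1 - η := by
      intro i
      by_cases hij : i = j
      · exact Eventually.of_forall fun η hne => absurd hij hne
      · have h6 := re_lt_one (hn j) (hn i) (fun h => hij (hinj h))
        have h7 : ∀ᶠ η in 𝓝 (0 : ℝ), η < 1 - (starRingEnd ℂ (n j) * n i).re :=
          Iio_mem_nhds (by linarith)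
        filter_upwards [nhdsWithin_le_nhds h7] with η hη _
        linarith
    have h8 : ∀ᶠ η in 𝓝[>] (0 : ℝ), ∀ i, i ≠ j → (starRingEnd ℂ (n j) * n i).re ≤ 1 - η :=
      eventually_all.2 h5
    obtain ⟨η, h9, h10⟩ := (h8.and self_mem_nhdsWithin).exists
    exact ⟨η, h10, h9⟩
  obtain ⟨g', hg1, hg2, hg3⟩ := hM T E F (ℂ × (Fin k → C2)) t₀ K hKg u hu1 ℓ
    (by
      intro z hz
      rw [hℓa]
      refine (Complex.re_le_norm _).trans ?_
      have := hK1 z hz
      simpa [hn j] using this)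
    y (fun z => h z.2) (hdiff.comp differentiable_snd)
    (fun z hz hre => (hnode z hz hre).1)
    (by
      intro z hz hre s hs
      refine hball _ ?_
      have hY : (F.triv y (u z)).2 ∈ ball a R := (hnode z hz hre).2
      have hh : h z.2 ∈ ball a R := (h1 (hsub hz.2)).2
      rw [mem_ball_iff_norm] at hY hh ⊢
      have e : (1 - s) • (F.triv y (u z)).2 + s • h z.2 - a =
          ((F.triv y (u z)).2 - a) + s • ((h z.2 - a) - ((F.triv y (u z)).2 - a)) := by
        module
      rw [e]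
      have h11 : ‖s • ((h z.2 - a) - ((F.triv y (u z)).2 - a))‖ ≤
          ‖h z.2 - a‖ + ‖(F.triv y (u z)).2 - a‖ := by
        rw [norm_smul]
        calc ‖s‖ * ‖(h z.2 - a) - ((F.triv y (u z)).2 - a)‖
            ≤ 1 * ‖(h z.2 - a) - ((F.triv y (u z)).2 - a)‖ :=
              mul_le_mul_of_nonneg_right hs (norm_nonneg _)
          _ ≤ _ := by rw [one_mul]; exact norm_sub_le _ _
      have h12 := norm_add_le ((F.triv y (u z)).2 - a)
        (s • ((h z.2 - a) - ((F.triv y (u z)).2 - a)))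
      linarith)
    η hη {q | ∀ i, i ≠ j → q.1.1 = n i → (q.1.2, q.2) ∈ 𝒪 i} (by
      intro z hz
      have h13 : ∀ i, ∀ᶠ q : (ℂ × (Fin k → C2)) × E in 𝓝 (z, u z),
          i ≠ j → q.1.1 = n i → (q.1.2, q.2) ∈ 𝒪 i := by
        intro i
        by_cases hij : i = j
        · exact Eventually.of_forall fun q hne => absurd hij hne
        by_cases hzi : z.1 = n i
        · have h14 := hu2 i z.2 hz.2
          rw [if_neg hij, ← hzi] at h14
          have h15 : Tendsto (fun q : (ℂ × (Fin k → C2)) × E => (q.1.2, q.2)) (𝓝 (z, u z))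
              (𝓝 (z.2, u z)) :=
            Continuous.tendsto (by fun_prop) (z, u z)
          have h16 : 𝒪 i ∈ 𝓝 (z.2, u z) := mem_interior_iff_mem_nhds.1 h14
          filter_upwards [h15.eventually h16] with q hq _ _ using hq
        · have h17 : Tendsto (fun q : (ℂ × (Fin k → C2)) × E => q.1.1) (𝓝 (z, u z))
              (𝓝 z.1) := Continuous.tendsto (by fun_prop) (z, u z)
          filter_upwards [h17.eventually (isOpen_ne.mem_nhds hzi)] with q hq _ hq2
          exact absurd hq2 hq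
      exact eventually_all.2 h13)
  refine ⟨g', hg1, ?_⟩
  intro i w hw
  have hmem : ((n i, w) : ℂ × (Fin k → C2)) ∈ K :=
    ⟨mem_closedBall_zero_iff.2 (hn i).le, hw⟩
  by_cases hij : i = j
  · subst hij
    have h18 : ℓ (n i, w) = 1 := by
      rw [hℓa]
      change starRingEnd ℂ (n i) * n i = 1
      rw [mul_comm, Complex.mul_conj, Complex.normSq_eq_norm_sq, hn i]; norm_num
    rw [hg3 _ hmem h18]
    have := mem_of_mem_nhds (h𝒪 i w hw)
    rwa [Function.update_self] at this
  · have h19 : (ℓ (n i, w)).re ≤ 1 - η := by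
      rw [hℓa]
      exact hη2 i hij
    exact hg2 _ hmem h19 i hij rfl

end Vale.Agent.P290.R2.H236
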