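import Vale.Agent.P290.R2.H596.Spec

/-! Surjectivity of maps close to the identity, and interpolation (second version). -/

open Set Filter Metric
open scoped Topology NNReal

namespace Vale.Agent.P290.R2.H236

open Vale.Agent.P290 Vale.Agent.P290.K Vale.Agent.P290.H580 Vale.Agent.P290.H805
open Vale.Agent.P290.R2.H596

theorem surj' : StSurj := by
  intro W _ _ _ φ ρ hρ hd hb b hbn
  have : CompleteSpace W := FiniteDimensional.complete ℂ W
  have hd' : DifferentiableOn ℂ (fun w => φ w - w) (ball (0 : W) ρ) := fun w hw =>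
    ((hd w hw).sub differentiableAt_id).differentiableWithinAt
  set s : Set W := closedBall 0 (3 * ρ / 8) with hs
  have hsb : s ⊆ ball 0 ρ := closedBall_subset_ball (by linarith)
  have hlip : ∀ x ∈ s, ∀ y ∈ s, ‖(φ y - y) - (φ x - x)‖ ≤ 1 / 5 * ‖y - x‖ := by
    intro x hx y hy
    refine Convex.norm_image_sub_le_of_norm_fderiv_le (𝕜 := ℂ) (s := s)
      (f := fun w => φ w - w) ?_ ?_ (convex_closedBall _ _) hx hy
    · intro z hz
      exact hd'.differentiableAt (isOpen_ball.mem_nhds (hsb hz))
    · intro z hz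
      have hsub : ball z (5 * ρ / 8) ⊆ ball 0 ρ := by
        refine ball_subset_ball' ?_
        rw [hs, mem_closedBall] at hz
        linarith
      refine (norm_fderiv_le_of_bound (by positivity) (hd'.mono hsub)
        fun x hx => hb x (hsub hx)).trans ?_
      rw [div_le_iff₀ (by positivity)]
      linarith
  set f : W → W := fun w => b - (φ w - w) with hf
  have hmaps : MapsTo f s s := by
    intro c hc
    have h1 := hb c (hsb hc)
    rw [hs, mem_closedBall_zero_iff, hf]
    calc ‖b - (φ c - c)‖ ≤ ‖b‖ + ‖φ c - c‖ := norm_sub_le _ _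
      _ ≤ 3 * ρ / 8 := by linarith
  have hcon : ContractingWith (1 / 5) (hmaps.restrict f s s) := by
    refine ⟨by
      rw [div_lt_one (by norm_num)]; norm_num, ?_⟩
    refine LipschitzWith.of_dist_le_mul fun x y => ?_
    rw [Subtype.dist_eq, Subtype.dist_eq, dist_eq_norm, dist_eq_norm]
    have h1 := hlip x.1 x.2 y.1 y.2
    have h2 : ((hmaps.restrict f s s x : s) : W) - ((hmaps.restrict f s s y : s) : W) =
        (φ y.1 - y.1) - (φ x.1 - x.1) := by
      simp only [MapsTo.val_restrict_apply, hf]
      abel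
    rw [h2]
    rw [norm_sub_rev (y : W) x] at h1
    simpa using h1
  obtain ⟨c, hc, hfix, -⟩ := hcon.exists_fixedPoint' isClosed_closedBall.isComplete hmaps
    (mem_closedBall_self (by positivity)) (edist_ne_top _ _)
  refine ⟨c, hsb hc, ?_⟩
  have h3 : b - (φ c - c) = c := hfix
  have h4 : b = c + (φ c - c) := by rw [← sub_eq_iff_eq_add]; exact h3
  rw [h4]; abel

theorem interp' : StInterp := by
  intro m k z hz c
  classical
  have h1 : ∀ i j : Fin k, ∃ l : Fin m → ℂ, i ≠ j → ∑ a, l a * (z j a - z i a) ≠ 0 := by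
    intro i j
    by_cases hij : i = j
    · exact ⟨0, fun h => absurd hij h⟩
    · have h2 : z i ≠ z j := fun h => hij (hz h)
      obtain ⟨a, ha⟩ := Function.ne_iff.1 h2
      refine ⟨Pi.single a 1, fun _ => ?_⟩
      rw [Finset.sum_eq_single a]
      · simp only [Pi.single_eq_same, one_mul]
        exact sub_ne_zero.2 (Ne.symm ha)
      · intro b _ hb
        simp [Pi.single_eq_of_ne hb]
      · intro h; exact absurd (Finset.mem_univ a) h
  choose l hl using h1
  refine ⟨fun y => ∑ j, c j * ∏ i ∈ Finset.univ.erase j,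
    ((∑ a, l i j a * (y a - z i a)) / (∑ a, l i j a * (z j a - z i a))), ?_, ?_⟩
  · fun_prop
  · intro j
    beta_reduce
    rw [Finset.sum_eq_single j]
    · rw [Finset.prod_eq_one, mul_one]
      intro i hi
      exact div_self (hl i j (Finset.ne_of_mem_erase hi))
    · intro j' _ hj'
      rw [Finset.prod_eq_zero (i := j) (Finset.mem_erase.2 ⟨hj'.symm, Finset.mem_univ j⟩),
        mul_zero]
      simp
    · intro h; exact absurd (Finset.mem_univ j) h

end Vale.Agent.P290.R2.H236
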