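import Vale.Agent.P290.R2.H596.Spec3
import Vale.Agent.P290.R2.H236.Nearby

/-! Volume preserving local biholomorphisms from large polydiscs: openness. -/

open Set Filter Metric
open scoped Topology

namespace Vale.Agent.P290.R2.H236

open Vale.Agent.P290 Vale.Agent.P290.K Vale.Agent.P290.H580 Vale.Agent.P290.H805
open Vale.Agent.P290.R2.H596

theorem det_formula (A : C2 →L[ℂ] C2) :
    A.det = (A (1, 0)).1 * (A (0, 1)).2 - (A (0, 1)).1 * (A (1, 0)).2 := by
  have h := LinearMap.det_toMatrix (Module.Basis.finTwoProd ℂ) (A : C2 →ₗ[ℂ] C2)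
  have h2 : A.det = LinearMap.det (A : C2 →ₗ[ℂ] C2) := rfl
  rw [h2, ← h, Matrix.det_fin_two]
  simp [LinearMap.toMatrix_apply]

theorem det_differentiable : Differentiable ℂ (fun A : C2 →L[ℂ] C2 => A.det) := by
  have h : (fun A : C2 →L[ℂ] C2 => A.det) = fun A =>
      (A (1, 0)).1 * (A (0, 1)).2 - (A (0, 1)).1 * (A (1, 0)).2 := by
    funext A; exact det_formula A
  rw [h]
  have h1 : ∀ v : C2, Differentiable ℂ (fun A : C2 →L[ℂ] C2 => A v) := fun v =>
    (ContinuousLinearMap.apply ℂ C2 v).differentiable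
  exact ((h1 _).fst.mul (h1 _).snd).sub ((h1 _).fst.mul (h1 _).snd)

variable {T E : Type} [TopologicalSpace T] [TopologicalSpace E]

/-- chain rule -/
theorem jac_comp (F : Family T E) (vol : E → T × C2 → ℂ) {t : T} {u : C2 → E} {φ : C2 → C2}
    {z : C2} (h : FH F t u (φ z)) (hφ : DifferentiableAt ℂ φ z) :
    jac F vol t (fun y => u (φ y)) z = jac F vol t u (φ z) * (fderiv ℂ φ z).det := by
  have h1 : fderiv ℂ (fun y => (F.triv (u (φ z)) (u (φ y))).2) z =
      (fderiv ℂ (fun y => (F.triv (u (φ z)) (u y)).2) (φ z)).comp (fderiv ℂ φ z) :=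
    fderiv_comp (g := fun y => (F.triv (u (φ z)) (u y)).2) (f := φ) z h.2.2 hφ
  have hdet : ∀ A B : C2 →L[ℂ] C2, (A.comp B).det = A.det * B.det := fun A B =>
    LinearMap.det_comp (A : C2 →ₗ[ℂ] C2) (B : C2 →ₗ[ℂ] C2)
  unfold jac
  rw [h1, hdet, mul_assoc]

/-- the Jacobian is holomorphic -/
theorem jac_diff (hJac : StJac) {F : Family T E} {vol : E → T × C2 → ℂ} (hvol : RelForm F vol)
    {t : T} {u : C2 → E} {z : C2} (h : ∀ᶠ y in 𝓝 z, FH F t u y) :
    DifferentiableAt ℂ (jac F vol t u) z := by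
  have hz : FH F t u z := h.self_of_nhds
  have hsrc := hz.eventually_source (F.mem (u z))
  have h1 : ∀ᶠ y in 𝓝 z, DifferentiableAt ℂ (fun y => (F.triv (u z) (u y)).2) y := by
    filter_upwards [h, hsrc] with y hy1 hy2 using hy1.diff hy2
  have h2 := contDiffAt_of_eventually h1 2
  have h3 : DifferentiableAt ℂ (fderiv ℂ (fun y => (F.triv (u z) (u y)).2)) z :=
    (h2.fderiv_right (m := 1) (by norm_num)).differentiableAt one_ne_zero
  have h4 : DifferentiableAt ℂ (fun y => (fderiv ℂ (fun y => (F.triv (u z) (u y)).2) y).det) z :=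
    (det_differentiable _).comp z h3
  have hmem : (t, (F.triv (u z) (u z)).2) ∈ (F.triv (u z)).target := by
    have e1 : F.triv (u z) (u z) = (t, (F.triv (u z) (u z)).2) := by
      rw [F.mk_eq _ (F.mem _), hz.1.self_of_nhds]
    rw [← e1]; exact (F.triv (u z)).map_source (F.mem _)
  have h5 : DifferentiableAt ℂ (fun y => vol (u z) (t, (F.triv (u z) (u y)).2)) z :=
    DifferentiableAt.comp (g := fun w => vol (u z) (t, w))
      (f := fun y => (F.triv (u z) (u y)).2) z (hvol (u z) t _ hmem).2.1 hz.2.2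
  refine (h5.mul h4).congr_of_eventuallyEq ?_
  filter_upwards [h, hsrc] with y hy1 hy2
  exact hJac T E F vol hvol t u y (u z) hy1 hy2

theorem symNear (hJac : StJac) (hJ : StJacClose) (hF : StFlat) (hs : StSurj) : StSymNear := by
  intro T E _ _ F vol hvol t₀ x₀ hx₀ R hR hSB
  obtain ⟨g₀, hg0, hg⟩ := hSB
  obtain ⟨ε, hε, hflat⟩ := hF R (R + 1 / 4) hR (by linarith)
  have hsub1 : closedBall (0 : C2) (R + 3 / 4) ⊆ closedBall 0 (R + 1) :=
    closedBall_subset_closedBall (by linarith)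
  obtain ⟨𝒪₁, h𝒪₁, hclose⟩ := hJ T E F vol hvol t₀ g₀ (R + 1 / 2) (R + 3 / 4) (by linarith)
    (fun y hy => (hg y (hsub1 hy)).1) ε hε
  have h00 : (0 : C2) ∈ closedBall (0 : C2) (R + 1) := mem_closedBall_self (by linarith)
  have hFH0 := (hg 0 h00).1
  -- the derivative at `0`
  set L : C2 →L[ℂ] C2 := fderiv ℂ (fun y => (F.triv x₀ (g₀ y)).2) 0 with hL
  have hsrc0 : g₀ 0 ∈ (F.triv x₀).source := by rw [hg0]; exact F.mem _
  have hLd : HasFDerivAt (fun y => (F.triv x₀ (g₀ y)).2) L 0 := (hFH0.diff hsrc0).hasFDerivAt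
  have hdet : L.det ≠ 0 := by
    intro h
    have h1 := (hg 0 h00).2
    unfold jac at h1
    rw [hg0, ← hL, h, mul_zero] at h1
    exact zero_ne_one h1
  set Le : C2 ≃L[ℂ] C2 := L.toContinuousLinearEquivOfDetNeZero hdet with hLe
  have hLeL : ∀ v, Le.symm (L v) = v := fun v => by
    have h1 : L v = Le v := rfl
    rw [h1, Le.symm_apply_apply]
  set a₀ : C2 := (F.triv x₀ x₀).2 with ha₀
  -- the radius `δ`
  obtain ⟨δ, hδ, hδ1, hδ2⟩ : ∃ δ > (0 : ℝ), δ ≤ 1 / 4 ∧ ∀ z ∈ closedBall (0 : C2) δ,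
      g₀ z ∈ (F.triv x₀).source ∧ ‖Le.symm ((F.triv x₀ (g₀ z)).2 - a₀) - z‖ < δ / 8 := by
    have h1 : HasFDerivAt (fun z => Le.symm ((F.triv x₀ (g₀ z)).2 - a₀))
        ((Le.symm : C2 →L[ℂ] C2).comp L) 0 :=
      (Le.symm : C2 →L[ℂ] C2).hasFDerivAt.comp (0 : C2) (hLd.sub_const a₀)
    have h2 := h1.isLittleO.def (show (0 : ℝ) < 1 / 16 by norm_num)
    have h3 : ∀ᶠ z in 𝓝 (0 : C2), g₀ z ∈ (F.triv x₀).source := hFH0.eventually_source hsrc0
    obtain ⟨δ₀, hδ₀, h4⟩ := Metric.nhds_basis_closedBall.mem_iff.1 (h2.and h3)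
    refine ⟨min δ₀ (1 / 4), lt_min hδ₀ (by norm_num), min_le_right _ _, ?_⟩
    intro z hz
    have hδpos : 0 < min δ₀ (1 / 4) := lt_min hδ₀ (by norm_num)
    obtain ⟨h5, h6⟩ := h4 (closedBall_subset_closedBall (min_le_left _ _) hz)
    refine ⟨h6, ?_⟩
    have h7 : Le.symm ((F.triv x₀ (g₀ z)).2 - a₀) - z =
        Le.symm ((F.triv x₀ (g₀ z)).2 - a₀) - Le.symm ((F.triv x₀ (g₀ 0)).2 - a₀) -
          ((Le.symm : C2 →L[ℂ] C2).comp L) (z - 0) := by
      rw [hg0, ← ha₀, sub_self, map_zero, sub_zero, sub_zero]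
      congr 1
      exact (hLeL z).symm
    rw [h7]
    refine h5.trans_lt ?_
    rw [sub_zero]
    have h8 := mem_closedBall_zero_iff.1 hz
    have h9 := norm_nonneg z
    linarith
  set 𝒪₂ : Set (C2 × E) := {q | q.1 ∈ closedBall (0 : C2) δ → q.2 ∈ (F.triv x₀).source ∧
    ‖Le.symm ((F.triv x₀ q.2).2 - a₀) - q.1‖ < δ / 8} with h𝒪₂
  have h𝒪₂n : ∀ z ∈ closedBall (0 : C2) (R + 3 / 4), 𝒪₂ ∈ 𝓝 (z, g₀ z) := by
    intro z hz
    by_cases hzδ : z ∈ closedBall (0 : C2) δ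
    · obtain ⟨h1, h2⟩ := hδ2 z hzδ
      have h3 : ContinuousAt (fun q : C2 × E => ‖Le.symm ((F.triv x₀ q.2).2 - a₀) - q.1‖)
          (z, g₀ z) := by
        have h4 : ContinuousAt (fun q : C2 × E => (F.triv x₀ q.2).2) (z, g₀ z) := by
          have h5 : ContinuousAt (F.triv x₀) ((fun q : C2 × E => q.2) (z, g₀ z)) :=
            (F.triv x₀).continuousAt h1
          exact continuous_snd.continuousAt.comp
            (ContinuousAt.comp (g := F.triv x₀) (f := fun q : C2 × E => q.2) h5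
              continuous_snd.continuousAt)
        have h6 : ContinuousAt (fun q : C2 × E => Le.symm ((F.triv x₀ q.2).2 - a₀)) (z, g₀ z) :=
          ContinuousAt.comp (g := fun v => Le.symm v)
            (f := fun q : C2 × E => (F.triv x₀ q.2).2 - a₀)
            Le.symm.continuous.continuousAt (h4.sub continuousAt_const)
        exact (h6.sub continuous_fst.continuousAt).norm
      have h7 : ∀ᶠ q : C2 × E in 𝓝 (z, g₀ z),
          ‖Le.symm ((F.triv x₀ q.2).2 - a₀) - q.1‖ < δ / 8 := h3.eventually (Iio_mem_nhds h2)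
      have h8 : ∀ᶠ q : C2 × E in 𝓝 (z, g₀ z), q.2 ∈ (F.triv x₀).source :=
        (continuous_snd.continuousAt (x := (z, g₀ z))).eventually
          ((F.triv x₀).open_source.mem_nhds h1)
      filter_upwards [h7, h8] with q hq1 hq2 _ using ⟨hq2, hq1⟩
    · have h3 : Tendsto (fun q : C2 × E => q.1) (𝓝 (z, g₀ z)) (𝓝 z) := continuous_fst.tendsto _
      filter_upwards [h3.eventually (isClosed_closedBall.isOpen_compl.mem_nhds hzδ)] with q hq hq2
      exact absurd hq2 hq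
  have hKg : Good (closedBall (0 : C2) (R + 3 / 4)) :=
    ⟨isCompact_closedBall _ _, convex_closedBall _ _⟩
  have hnear : ∀ᶠ z in 𝓝ˢ (closedBall (0 : C2) (R + 3 / 4)), FH F t₀ g₀ z := by
    have h1 : ball (0 : C2) (R + 1) ∈ 𝓝ˢ (closedBall (0 : C2) (R + 3 / 4)) :=
      isOpen_ball.mem_nhdsSet.2 (closedBall_subset_ball (by linarith))
    filter_upwards [h1] with z hz using (hg z (ball_subset_closedBall hz)).1
  have hdef := deformation hKg hnear (𝒪₁ ∩ 𝒪₂) fun z hz => inter_mem (h𝒪₁ z hz) (h𝒪₂n z hz)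
  have hp : Tendsto F.p (𝓝 x₀) (𝓝 t₀) := by
    have := (continuousAt_p F x₀).tendsto
    rwa [hx₀] at this
  have e2 : ∀ᶠ x in 𝓝 x₀, x ∈ (F.triv x₀).source ∧
      ‖Le.symm ((F.triv x₀ x).2 - a₀)‖ < δ / 4 := by
    have h4 : ContinuousAt (fun x => (F.triv x₀ x).2) x₀ :=
      continuous_snd.continuousAt.comp ((F.triv x₀).continuousAt (F.mem x₀))
    have h5 : ContinuousAt (fun x => ‖Le.symm ((F.triv x₀ x).2 - a₀)‖) x₀ :=
      (ContinuousAt.comp (g := fun v => Le.symm v) (f := fun x => (F.triv x₀ x).2 - a₀)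
        Le.symm.continuous.continuousAt (h4.sub continuousAt_const)).norm
    have h6 : ∀ᶠ x in 𝓝 x₀, ‖Le.symm ((F.triv x₀ x).2 - a₀)‖ < δ / 4 := by
      refine h5.eventually (Iio_mem_nhds ?_)
      simp only [← ha₀, sub_self, map_zero, norm_zero]
      positivity
    filter_upwards [h6, (F.triv x₀).open_source.mem_nhds (F.mem x₀)] with x h7 h8
    exact ⟨h8, h7⟩
  filter_upwards [hp.eventually hdef, hp.eventually hclose, e2] with x hx1 hx2 hx3
  obtain ⟨u, hu1, hu2⟩ := hx1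
  have huFH := hu1.self_of_nhdsSet
  have hjac := hx2 u huFH (fun y hy => (hu2 y hy).1)
  have hu𝒪₂ : ∀ z ∈ closedBall (0 : C2) δ, u z ∈ (F.triv x₀).source ∧
      ‖Le.symm ((F.triv x₀ (u z)).2 - a₀) - z‖ < δ / 8 := fun z hz =>
    (hu2 z (closedBall_subset_closedBall (by linarith) hz)).2 hz
  have hδK : closedBall (0 : C2) δ ⊆ closedBall 0 (R + 3 / 4) :=
    closedBall_subset_closedBall (by linarith)
  -- the point `z₀`
  obtain ⟨z₀, hz₀, hz₀e⟩ := hs C2 (fun z => Le.symm ((F.triv x₀ (u z)).2 - a₀)) δ hδ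
    (fun z hz => by
      have h1 := (huFH z (hδK (ball_subset_closedBall hz))).diff
        (hu𝒪₂ z (ball_subset_closedBall hz)).1
      exact DifferentiableAt.comp (g := fun v => Le.symm v)
        (f := fun z => (F.triv x₀ (u z)).2 - a₀) z Le.symm.differentiableAt
        (h1.sub_const a₀))
    (fun z hz => (hu𝒪₂ z (ball_subset_closedBall hz)).2.le)
    (Le.symm ((F.triv x₀ x).2 - a₀)) hx3.2.le
  have hz₀n : ‖z₀‖ < δ := mem_ball_zero_iff.1 hz₀
  have hz₀c : z₀ ∈ closedBall (0 : C2) δ := ball_subset_closedBall hz₀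
  have huz₀ : u z₀ = x := by
    have h1 : (F.triv x₀ (u z₀)).2 = (F.triv x₀ x).2 := by
      have h2 := Le.symm.injective hz₀e
      exact sub_left_injective h2
    have h3 : F.p (u z₀) = F.p x := (huFH z₀ (hδK hz₀c)).1.self_of_nhds
    refine (F.triv x₀).injOn (hu𝒪₂ z₀ hz₀c).1 hx3.1 ?_
    rw [F.mk_eq x₀ (hu𝒪₂ z₀ hz₀c).1, F.mk_eq x₀ hx3.1, h1, h3]
  have hshift : ∀ y ∈ ball (0 : C2) (R + 1 / 4), z₀ + y ∈ closedBall (0 : C2) (R + 1 / 2) := by
    intro y hy
    rw [mem_closedBall_zero_iff]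
    have h1 := norm_add_le z₀ y
    have h2 := mem_ball_zero_iff.1 hy
    linarith
  have hsub2 : closedBall (0 : C2) (R + 1 / 2) ⊆ closedBall 0 (R + 3 / 4) :=
    closedBall_subset_closedBall (by linarith)
  obtain ⟨ψ, hψ0, hψ⟩ := hflat (fun z => jac F vol (F.p x) u (z₀ + z)) (by
    intro y hy
    have hy' := hshift y hy
    constructor
    · have h1 : DifferentiableAt ℂ (jac F vol (F.p x) u) (z₀ + y) :=
        jac_diff hJac hvol (hu1.filter_mono (nhds_le_nhdsSet (hsub2 hy')))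
      exact DifferentiableAt.comp (g := jac F vol (F.p x) u) (f := fun z => z₀ + z) y h1
        (differentiableAt_id.const_add z₀)
    · have h1 := hjac (z₀ + y) hy'
      rw [(hg (z₀ + y) (hsub1 (hsub2 hy'))).2] at h1
      exact h1.le)
  refine ⟨fun z => u (z₀ + ψ z), ?_, ?_⟩
  · change u (z₀ + ψ 0) = x
    rw [hψ0, add_zero, huz₀]
  · intro y hy
    obtain ⟨h1, h2, h3⟩ := hψ y hy
    have h4 : FH F (F.p x) u (z₀ + ψ y) := huFH _ (hsub2 (hshift _ h2))
    have h5 : DifferentiableAt ℂ (fun z => z₀ + ψ z) y := h1.const_add z₀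
    refine ⟨FH.comp (q := fun z => z₀ + ψ z) h4 h5, ?_⟩
    rw [jac_comp F vol (φ := fun z => z₀ + ψ z) h4 h5]
    rw [fderiv_const_add]
    exact h3

end Vale.Agent.P290.R2.H236
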